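import Crest.Agent.SG.Cert.N47

/-!
# S0298 for `n = 47`
-/

set_option autoImplicit false

namespace Crest.Agent.SG

/-- the statement S0298 for `n = 47` -/
theorem small47 :
    ∃ (V : Type) (_ : AddCommGroup V) (_ : Module ℂ V) (_ : FiniteDimensional ℂ V)
      (ρ : Representation ℂ (Equiv.Perm (Fin 47)) V), Representation.IsIrreducible ρ ∧
      ∀ (W : Type) [AddCommGroup W] [Module ℂ W] [FiniteDimensional ℂ W]
        (σ : Representation ℂ (Equiv.Perm (Fin 47)) W), Representation.IsIrreducible σ →
        Nontrivial (Representation.IntertwiningMap σ (Representation.tprod ρ ρ)) :=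
  full_S0298 full47 (by decide)

end Crest.Agent.SG
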