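import Crest.Agent.SG.Defs

/-!
CHUNK R195-SG-ADD (easy/medium).  `Defs` only.
-/

set_option autoImplicit false

namespace Crest.Agent.SG

open Finset Equiv Crest.Agent.Saxl

variable {X : Type} [Fintype X] [DecidableEq X]

/-- columns of a disjoint union -/
def csum {X X' : Type} (A : Word X) (A' : Word X') : Word (X ⊕ X') :=
  Sum.elim (fun x => 2 * A x) (fun x => 2 * A' x + 1)

/-- PROOF: `σ ∈ Rs (csum A A')` maps `X` to `X` and `X'` to `X'`, so it is `Perm.sumCongr σ₁ σ₂` for a unique pair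
`(σ₁, σ₂) ∈ Rs A × Rs A'` (`Equiv.Perm.sumCongrHom`, `Equiv.Perm.mem_sumCongrHom_range_of_perm_mapsTo_inl`). -/
theorem Rs_csum {X X' : Type} [Fintype X] [DecidableEq X] [Fintype X'] [DecidableEq X']
    (A : Word X) (A' : Word X') :
    Rs (csum A A') = (Rs A ×ˢ Rs A').image (fun p => Perm.sumCongr p.1 p.2) := by
  ext σ
  simp only [Rs, Finset.mem_filter, Finset.mem_univ, true_and, Finset.mem_image, Finset.mem_product,
    Prod.exists]
  constructor
  · intro h
    have hmap : Set.MapsTo σ (Set.range (Sum.inl : X → X ⊕ X')) (Set.range Sum.inl) := by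
      rintro _ ⟨x, rfl⟩
      have hx := congrFun h (Sum.inl x)
      rcases hs : σ (Sum.inl x) with y | y
      · exact ⟨y, rfl⟩
      · exfalso
        simp only [Function.comp_apply, hs, csum, Sum.elim_inl, Sum.elim_inr] at hx
        omega
    obtain ⟨⟨σ₁, σ₂⟩, rfl⟩ := Equiv.Perm.mem_sumCongrHom_range_of_perm_mapsTo_inl hmap
    refine ⟨σ₁, σ₂, ⟨?_, ?_⟩, rfl⟩
    · funext x
      have hx := congrFun h (Sum.inl x)
      simp only [Function.comp_apply, Equiv.Perm.sumCongrHom_apply, Equiv.Perm.sumCongr_apply, Sum.map_inl,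
        csum, Sum.elim_inl] at hx ⊢
      omega
    · funext x
      have hx := congrFun h (Sum.inr x)
      simp only [Function.comp_apply, Equiv.Perm.sumCongrHom_apply, Equiv.Perm.sumCongr_apply, Sum.map_inr,
        csum, Sum.elim_inr] at hx ⊢
      omega
  · rintro ⟨σ₁, σ₂, ⟨h1, h2⟩, rfl⟩
    funext x
    rcases x with x | x
    · have hx := congrFun h1 x
      simp only [Function.comp_apply] at hx
      simp [csum, hx]
    · have hx := congrFun h2 x
      simp only [Function.comp_apply] at hx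
      simp [csum, hx]

theorem sum_Rs_csum {X X' : Type} [Fintype X] [DecidableEq X] [Fintype X'] [DecidableEq X']
    (A : Word X) (A' : Word X') {M : Type*} [AddCommMonoid M] (f : Perm (X ⊕ X') → M) :
    ∑ σ ∈ Rs (csum A A'), f σ = ∑ σ ∈ Rs A, ∑ σ' ∈ Rs A', f (Perm.sumCongr σ σ') := by
  rw [Rs_csum, Finset.sum_image, Finset.sum_product]
  rintro ⟨p, q⟩ _ ⟨p', q'⟩ _ h
  have := Equiv.Perm.sumCongrHom_injective (α := X) (β := X') (a₁ := (p, q)) (a₂ := (p', q')) h
  exact this

/-- PROOF: `Rs_csum`, `sumCongr` injective, `Perm.sign_sumCongr`, `Fintype.prod_sum_type`. -/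
theorem EPol_sum {X X' : Type} [Fintype X] [DecidableEq X] [Fintype X'] [DecidableEq X']
    (a A b B c C : Word X) (a' A' b' B' c' C' : Word X') :
    EPol (Sum.elim a a') (csum A A') (Sum.elim b b') (csum B B') (Sum.elim c c') (csum C C') =
      EPol a A b B c C * EPol a' A' b' B' c' C' := by
  unfold EPol
  rw [sum_Rs_csum, Finset.sum_mul_sum]
  refine Finset.sum_congr rfl fun σ _ => Finset.sum_congr rfl fun σ' _ => ?_
  rw [sum_Rs_csum, Finset.sum_mul_sum]
  refine Finset.sum_congr rfl fun τ _ => Finset.sum_congr rfl fun τ' _ => ?_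
  rw [sum_Rs_csum, Finset.sum_mul_sum]
  refine Finset.sum_congr rfl fun υ _ => Finset.sum_congr rfl fun υ' _ => ?_
  rw [Fintype.prod_sum_type]
  simp only [Perm.sign_sumCongr, Units.val_mul, Equiv.Perm.sumCongr_apply, Sum.map_inl, Sum.map_inr,
    Sum.elim_inl, Sum.elim_inr, map_mul]
  ring

theorem isCol_of_tb {X : Type} {a A : Word X} (h : Tb a A) : IsCol a A := by
  refine ⟨fun x y hxy => h.inj ?_, fun x i hi => ?_⟩
  · simp only [Prod.mk.injEq] at hxy ⊢
    exact ⟨trivial, hxy⟩
  · obtain ⟨y, -, h1, h2⟩ := h.lower x i (A x) hi le_rfl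
    exact ⟨y, h2, h1⟩

theorem isCol_sum {X X' : Type} {a A : Word X} {a' A' : Word X'} (h : IsCol a A) (h' : IsCol a' A') :
    IsCol (Sum.elim a a') (csum A A') := by
  constructor
  · rintro (x | x) (y | y) hxy <;> simp only [csum, Sum.elim_inl, Sum.elim_inr, Prod.mk.injEq] at hxy
    · have : x = y := h.inj (by simp only [Prod.mk.injEq]; exact ⟨hxy.1, by omega⟩)
      rw [this]
    · omega
    · omega
    · have : x = y := h'.inj (by simp only [Prod.mk.injEq]; exact ⟨hxy.1, by omega⟩)
      rw [this]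
  · rintro (x | x) i hi
    · obtain ⟨y, h1, h2⟩ := h.lower x i hi
      exact ⟨Sum.inl y, by simp [csum, h1], h2⟩
    · obtain ⟨y, h1, h2⟩ := h'.lower x i hi
      exact ⟨Sum.inr y, by simp [csum, h1], h2⟩

theorem ladd_getD : ∀ (l l' : List ℕ) (i : ℕ), (ladd l l').getD i 0 = l.getD i 0 + l'.getD i 0
  | [], l', i => by simp [ladd]
  | a :: l, [], i => by simp [ladd]
  | a :: l, b :: l', 0 => by simp [ladd]
  | a :: l, b :: l', i + 1 => by
    simp only [ladd, List.getD_cons_succ]
    exact ladd_getD l l' i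

theorem rowSz_sum {X X' : Type} [Fintype X] [DecidableEq X] [Fintype X'] [DecidableEq X']
    {a : Word X} {a' : Word X'} {l l' : List ℕ} (h : RowSz a l) (h' : RowSz a' l') :
    RowSz (Sum.elim a a') (ladd l l') := by
  intro i
  rw [ladd_getD, ← h i, ← h' i, Finset.card_filter, Finset.card_filter, Finset.card_filter,
    Fintype.sum_sum_type]
  rfl

end Crest.Agent.SG
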