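import Crest.Agent.SG.Lists

/-!
# Certificate checker for `Full l`

A derivation is a natural number, read in base 64: postfix program of a stack machine on triples of
lists.  Digits:
* `1 .. 6` leaf: followed by the parts of a partition `α` and a `0`; the triples
  `([m], α, α)`, `(α, [m], α)`, `(α, α, [m])`, and `(1^m, α', α)`, `(α', 1^m, α)`, `(α', α, 1^m)`;
* `7 .. 10`: add the two top triples and transpose no / the 1st+2nd / 1st+3rd / 2nd+3rd components;
* `11`: generator, followed by two digits (its index).
-/

set_option autoImplicit false

namespace Crest.Agent.SG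

open Finset Equiv Crest.Agent.Saxl

/-- triples of lists -/
structure T3 where
  a : List ℕ
  b : List ℕ
  c : List ℕ

/-- all generators used, as triples -/
def GoodT (t : T3) : Prop := Good t.a t.b t.c

def T3.add (s t : T3) : T3 := ⟨ladd s.a t.a, ladd s.b t.b, ladd s.c t.c⟩

def T3.t12 (t : T3) : T3 := ⟨lconj t.a, lconj t.b, t.c⟩
def T3.t13 (t : T3) : T3 := ⟨lconj t.a, t.b, lconj t.c⟩
def T3.t23 (t : T3) : T3 := ⟨t.a, lconj t.b, lconj t.c⟩

theorem GoodT.add {s t : T3} (hs : GoodT s) (ht : GoodT t) : GoodT (s.add t) := good_add hs ht

theorem GoodT.t12 {t : T3} (ht : GoodT t) : GoodT t.t12 := good_tr12 ht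

theorem GoodT.t13 {t : T3} (ht : GoodT t) : GoodT t.t13 :=
  good_swap23 (good_tr12 (good_swap23 ht))

theorem GoodT.t23 {t : T3} (ht : GoodT t) : GoodT t.t23 := by
  have h1 : Good t.b t.c t.a := good_swap23 (good_swap12 ht)
  have h2 : Good (lconj t.b) (lconj t.c) t.a := good_tr12 h1
  exact good_swap12 (good_swap23 h2)

/-- weakly decreasing (Boolean) -/
def sortedB : List ℕ → Bool
  | [] => true
  | a :: l => (match l with
    | [] => true
    | b :: _ => Nat.ble b a) && sortedB l

theorem sortedB_spec : ∀ l : List ℕ, sortedB l = true → l.Pairwise (· ≥ ·)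
  | [], _ => List.Pairwise.nil
  | [a], _ => by simp
  | a :: b :: l, h => by
    have h1 : Nat.ble b a = true ∧ sortedB (b :: l) = true := by
      have : (Nat.ble b a && sortedB (b :: l)) = true := h
      simpa using this
    have h2 := sortedB_spec (b :: l) h1.2
    have h3 : b ≤ a := Nat.le_of_ble_eq_true h1.1
    rw [List.pairwise_cons]
    refine ⟨fun c hc => ?_, h2⟩
    rcases List.mem_cons.1 hc with rfl | hc
    · exact h3
    · exact le_trans ((List.pairwise_cons.1 h2).1 c hc) h3

/-- sum of a list (kernel friendly) -/
def lsum : List ℕ → ℕ
  | [] => 0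
  | a :: l => Nat.add a (lsum l)

theorem lsum_eq : ∀ l : List ℕ, lsum l = l.sum
  | [] => rfl
  | a :: l => by
    show a + lsum l = _
    rw [lsum_eq l, List.sum_cons]

/-- the leaf triples -/
def leafT (k : ℕ) (l : List ℕ) : T3 :=
  match k with
  | 1 => ⟨[lsum l], l, l⟩
  | 2 => ⟨l, [lsum l], l⟩
  | 3 => ⟨l, l, [lsum l]⟩
  | 4 => ⟨lconj [lsum l], lconj l, l⟩
  | 5 => ⟨lconj l, lconj [lsum l], l⟩
  | _ => ⟨lconj l, l, lconj [lsum l]⟩

theorem leafT_good (k : ℕ) (l : List ℕ) (h : sortedB l = true) : GoodT (leafT k l) := by
  have h0 := good_triv l (sortedB_spec l h)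
  rw [← lsum_eq] at h0
  have h3 : GoodT ⟨l, l, [lsum l]⟩ := h0
  have h1 : GoodT ⟨[lsum l], l, l⟩ := good_swap12 (good_swap23 h0)
  have h2 : GoodT ⟨l, [lsum l], l⟩ := good_swap23 h0
  unfold leafT
  split
  · exact h1
  · exact h2
  · exact h3
  · exact h1.t12
  · exact h2.t12
  · exact h3.t13

/-- read digits up to a zero digit -/
def getL : ℕ → ℕ → List ℕ → List ℕ × ℕ
  | 0, N, acc => (acc, N)
  | f + 1, N, acc =>
    match Nat.mod N 64 with
    | 0 => (acc, Nat.div N 64)
    | d + 1 => getL f (Nat.div N 64) (Nat.succ d :: acc)

/-- the stack machine -/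
def run (gens : List T3) : ℕ → ℕ → List T3 → List T3
  | 0, _, _ => []
  | f + 1, N, st =>
    match Nat.ble 1 N with
    | false => st
    | true =>
      let d := Nat.mod N 64
      let N' := Nat.div N 64
      match Nat.ble d 6 with
      | true =>
        let p := getL 64 N' []
        match sortedB p.1 with
        | true => run gens f p.2 (leafT d p.1 :: st)
        | false => []
      | false =>
        match Nat.ble d 10 with
        | true =>
          match st with
          | x :: y :: st' =>
            match d with
            | 7 => run gens f N' (x.add y :: st')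
            | 8 => run gens f N' ((x.add y).t12 :: st')
            | 9 => run gens f N' ((x.add y).t13 :: st')
            | _ => run gens f N' ((x.add y).t23 :: st')
          | _ => []
        | false => run gens f (Nat.div N' 4096) (gens.getD (Nat.mod N' 4096) ⟨[], [], []⟩ :: st)

theorem run_good (gens : List T3) (hg : ∀ t ∈ gens, GoodT t) (hg0 : GoodT ⟨[], [], []⟩) :
    ∀ (f N : ℕ) (st : List T3), (∀ t ∈ st, GoodT t) → ∀ t ∈ run gens f N st, GoodT t
  | 0, N, st, _ => by simp [run]
  | f + 1, N, st, hst => by
    have hcons : ∀ (s : T3) (st' : List T3), GoodT s → (∀ t ∈ st', GoodT t) →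
        ∀ t ∈ s :: st', GoodT t := by
      intro s st' h1 h2 t ht
      rcases List.mem_cons.1 ht with rfl | ht
      · exact h1
      · exact h2 t ht
    unfold run
    split
    · exact hst
    · dsimp only
      split
      · split
        · rename_i h
          exact run_good gens hg hg0 f _ _ (hcons _ _ (leafT_good _ _ h) hst)
        · simp
      · split
        · split
          · rename_i x y st' 
            have hx : GoodT x := hst x (by simp)
            have hy : GoodT y := hst y (by simp)
            have hst' : ∀ t ∈ st', GoodT t := fun t ht => hst t (by simp [ht])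
            split
            · exact run_good gens hg hg0 f _ _ (hcons _ _ (hx.add hy) hst')
            · exact run_good gens hg hg0 f _ _ (hcons _ _ (hx.add hy).t12 hst')
            · exact run_good gens hg hg0 f _ _ (hcons _ _ (hx.add hy).t13 hst')
            · exact run_good gens hg hg0 f _ _ (hcons _ _ (hx.add hy).t23 hst')
          · simp
        · refine run_good gens hg hg0 f _ _ (hcons _ _ ?_ hst)
          rw [List.getD_eq_getElem?_getD]
          rcases h : gens[Nat.mod (Nat.div N 64) 4096]? with _ | t
          · simpa using hg0
          · simpa using hg t (List.mem_of_getElem? h)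

/-- equality of lists -/
def leq : List ℕ → List ℕ → Bool
  | [], [] => true
  | a :: l, b :: l' => Nat.beq a b && leq l l'
  | _, _ => false

theorem leq_spec : ∀ l l' : List ℕ, leq l l' = true → l = l'
  | [], [], _ => rfl
  | [], _ :: _, h => by simp [leq] at h
  | _ :: _, [], h => by simp [leq] at h
  | a :: l, b :: l', h => by
    have h1 : Nat.beq a b = true ∧ leq l l' = true := by
      have : (Nat.beq a b && leq l l') = true := h
      simpa using this
    rw [Nat.eq_of_beq_eq_true h1.1, leq_spec l l' h1.2]

/-- `l` is lexicographically smaller than `l'` -/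
def llt : List ℕ → List ℕ → Bool
  | [], [] => false
  | [], _ :: _ => true
  | _ :: _, [] => false
  | a :: l, b :: l' => Nat.blt a b || (Nat.beq a b && llt l l')

theorem llt_asymm : ∀ l l' : List ℕ, llt l l' = true → llt l' l = true → False
  | [], [], h, _ => by simp [llt] at h
  | [], _ :: _, _, h => by simp [llt] at h
  | _ :: _, [], h, _ => by simp [llt] at h
  | a :: l, b :: l', h, h' => by
    have h1 : Nat.blt a b = true ∨ (Nat.beq a b = true ∧ llt l l' = true) := by
      have : (Nat.blt a b || (Nat.beq a b && llt l l')) = true := h
      simpa using this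
    have h2 : Nat.blt b a = true ∨ (Nat.beq b a = true ∧ llt l' l = true) := by
      have : (Nat.blt b a || (Nat.beq b a && llt l' l)) = true := h'
      simpa using this
    have e1 : ∀ x y : ℕ, Nat.blt x y = true → x < y := fun x y h => Nat.le_of_ble_eq_true h
    have e2 : ∀ x y : ℕ, Nat.beq x y = true → x = y := fun x y h => Nat.eq_of_beq_eq_true h
    rcases h1 with h1 | ⟨h1, h3⟩ <;> rcases h2 with h2 | ⟨h2, h4⟩
    · have := e1 _ _ h1; have := e1 _ _ h2; omega
    · have := e1 _ _ h1; have := e2 _ _ h2; omega
    · have := e2 _ _ h1; have := e1 _ _ h2; omega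
    · exact llt_asymm l l' h3 h4

/-- check one derivation -/
def chk1 (gens : List T3) (l ν : List ℕ) (d : ℕ) : Bool :=
  match run gens 200 d [] with
  | [t] => leq t.a l && (leq t.b l && leq t.c ν)
  | _ => false

theorem chk1_spec (gens : List T3) (hg : ∀ t ∈ gens, GoodT t) (hg0 : GoodT ⟨[], [], []⟩)
    (l ν : List ℕ) (d : ℕ) (h : chk1 gens l ν d = true) : Good l l ν := by
  have h0 := run_good gens hg hg0 200 d [] (by simp)
  unfold chk1 at h
  split at h
  · rename_i t ht
    rw [ht] at h0
    have h1 : leq t.a l = true ∧ (leq t.b l = true ∧ leq t.c ν = true) := by simpa using h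
    have h2 := h0 t (by simp)
    have e1 := leq_spec _ _ h1.1
    have e2 := leq_spec _ _ h1.2.1
    have e3 := leq_spec _ _ h1.2.2
    unfold GoodT at h2
    rwa [e1, e2, e3] at h2
  · exact absurd h (by simp)

/-- check all: `ν` is skipped if it is smaller than its conjugate -/
def chk (gens : List T3) (l : List ℕ) : List (List ℕ) → List ℕ → Bool
  | [], _ => true
  | ν :: r, ds =>
    match llt ν (lconj ν) with
    | true => chk gens l r ds
    | false =>
      match ds with
      | [] => false
      | d :: ds' => chk1 gens l ν d && chk gens l r ds'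

theorem chk_spec (gens : List T3) (hg : ∀ t ∈ gens, GoodT t) (hg0 : GoodT ⟨[], [], []⟩)
    (l : List ℕ) : ∀ (r : List (List ℕ)) (ds : List ℕ),
    chk gens l r ds = true → ∀ ν ∈ r, llt ν (lconj ν) = true ∨ Good l l ν
  | [], _, _, ν, hν => by simp at hν
  | μ :: r, ds, h, ν, hν => by
    unfold chk at h
    split at h
    · rename_i h1
      rcases List.mem_cons.1 hν with rfl | hν
      · exact Or.inl h1
      · exact chk_spec gens hg hg0 l r ds h ν hν
    · split at h
      · exact absurd h (by simp)
      · rename_i d ds'
        have h2 : chk1 gens l μ d = true ∧ chk gens l r ds' = true := by simpa using h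
        rcases List.mem_cons.1 hν with rfl | hν
        · exact Or.inr (chk1_spec gens hg hg0 l ν d h2.1)
        · exact chk_spec gens hg hg0 l r ds' h2.2 ν hν

/-- all weakly decreasing lists of sum `m` with entries in `[j, k]`; fuel `≥ m + k` -/
def prt : ℕ → ℕ → ℕ → List (List ℕ)
  | 0, _, _ => []
  | f + 1, m, k =>
    match m with
    | 0 => [[]]
    | m' + 1 =>
      match k with
      | 0 => []
      | k' + 1 =>
        (match Nat.ble k' m' with
          | true => (prt f (Nat.sub m' k') (Nat.succ k')).map (Nat.succ k' :: ·)
          | false => []) ++ prt f (Nat.succ m') k'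

theorem prt_spec : ∀ (f m k : ℕ) (ν : List ℕ), ν.Pairwise (· ≥ ·) → (∀ a ∈ ν, 0 < a ∧ a ≤ k) →
    ν.sum = m → m + k < f → ν ∈ prt f m k
  | 0, _, _, _, _, _, _, h => by omega
  | f + 1, m, k, ν, h1, h2, h3, h4 => by
    unfold prt
    split
    · -- m = 0
      rcases ν with _ | ⟨a, ν⟩
      · simp
      · exfalso
        have := (h2 a (by simp)).1
        rw [List.sum_cons] at h3
        omega
    · rename_i m'
      split
      · exfalso
        rcases ν with _ | ⟨a, ν⟩
        · simp at h3
        · have := h2 a (by simp)
          omega
      · rename_i k'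
        rw [List.mem_append]
        rcases ν with _ | ⟨a, ν⟩
        · simp at h3
        · have ha := h2 a (by simp)
          rw [List.sum_cons] at h3
          by_cases hak : a = k' + 1
          · left
            subst hak
            have hle : Nat.ble k' m' = true := Nat.ble_eq_true_of_le (by omega)
            rw [hle]
            dsimp only
            rw [List.mem_map]
            refine ⟨ν, ?_, rfl⟩
            refine prt_spec f _ _ ν (List.pairwise_cons.1 h1).2 (fun b hb => ⟨(h2 b (by simp [hb])).1, ?_⟩) ?_ ?_
            · exact (List.pairwise_cons.1 h1).1 b hb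
            · show ν.sum = m' - k'
              omega
            · show m' - k' + (k' + 1) < f
              omega
          · right
            refine prt_spec f _ _ (a :: ν) h1 (fun b hb => ⟨(h2 b hb).1, ?_⟩) ?_ ?_
            · rcases List.mem_cons.1 hb with rfl | hb
              · omega
              · have := (List.pairwise_cons.1 h1).1 b hb
                have : b ≤ a := this
                omega
            · rw [List.sum_cons]
              exact h3
            · show Nat.succ m' + k' < f
              omega

/-- all weakly decreasing lists of sum `m` with entries in `[1, k]` and at most one `1`; fuel `> m + k` -/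
def prt2 : ℕ → ℕ → ℕ → List (List ℕ)
  | 0, _, _ => []
  | f + 1, m, k =>
    match m with
    | 0 => [[]]
    | m' + 1 =>
      match k with
      | 0 => []
      | 1 => match m' with
        | 0 => [[1]]
        | _ => []
      | k' + 2 =>
        (match Nat.ble (Nat.succ k') m' with
          | true => (prt2 f (Nat.sub m' (Nat.succ k')) (Nat.succ (Nat.succ k'))).map
              (Nat.succ (Nat.succ k') :: ·)
          | false => []) ++ prt2 f (Nat.succ m') (Nat.succ k')

theorem prt2_spec : ∀ (f m k : ℕ) (ν : List ℕ), ν.Pairwise (· ≥ ·) → (∀ a ∈ ν, 0 < a ∧ a ≤ k) →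
    ν.countP (fun a => decide (a = 1)) ≤ 1 → ν.sum = m → m + k < f → ν ∈ prt2 f m k
  | 0, _, _, _, _, _, _, _, h => by omega
  | f + 1, m, k, ν, h1, h2, h5, h3, h4 => by
    unfold prt2
    split
    · -- m = 0
      rcases ν with _ | ⟨a, ν⟩
      · simp
      · exfalso
        have := (h2 a (by simp)).1
        rw [List.sum_cons] at h3
        omega
    · rename_i m'
      split
      · exfalso
        rcases ν with _ | ⟨a, ν⟩
        · simp at h3
        · have := h2 a (by simp)
          omega
      · -- k = 1
        rcases ν with _ | ⟨a, ν⟩
        · simp at h3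
        · rcases ν with _ | ⟨b, ν⟩
          · have := h2 a (by simp)
            have ha : a = 1 := by omega
            subst ha
            have hm : m' = 0 := by simpa using h3.symm
            subst hm
            simp
          · exfalso
            have ha := h2 a (by simp)
            have hb := h2 b (by simp)
            have ha : a = 1 := by omega
            have hb : b = 1 := by omega
            subst ha hb
            simp at h5
      · rename_i k'
        rw [List.mem_append]
        rcases ν with _ | ⟨a, ν⟩
        · simp at h3
        · have ha := h2 a (by simp)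
          rw [List.sum_cons] at h3
          have h6 : ν.countP (fun a => decide (a = 1)) ≤ 1 := by
            rw [List.countP_cons] at h5
            omega
          by_cases hak : a = k' + 2
          · left
            subst hak
            have hle : Nat.ble (Nat.succ k') m' = true := Nat.ble_eq_true_of_le (by
              have : Nat.succ k' = k' + 1 := rfl
              omega)
            rw [hle]
            dsimp only
            rw [List.mem_map]
            refine ⟨ν, ?_, rfl⟩
            refine prt2_spec f _ _ ν (List.pairwise_cons.1 h1).2
              (fun b hb => ⟨(h2 b (by simp [hb])).1, ?_⟩) h6 ?_ ?_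
            · exact (List.pairwise_cons.1 h1).1 b hb
            · show ν.sum = m' - (k' + 1)
              omega
            · show m' - (k' + 1) + (k' + 1 + 1) < f
              omega
          · right
            refine prt2_spec f _ _ (a :: ν) h1 (fun b hb => ⟨(h2 b hb).1, ?_⟩) h5 ?_ ?_
            · show b ≤ k' + 1
              rcases List.mem_cons.1 hb with rfl | hb
              · omega
              · have := (List.pairwise_cons.1 h1).1 b hb
                have : b ≤ a := this
                omega
            · rw [List.sum_cons]
              exact h3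
            · show m' + 1 + (k' + 1) < f
              omega

/-- tight partitions of `n` with first part `p` -/
def tightP (n p : ℕ) : List (List ℕ) :=
  (match Nat.ble (Nat.add p p) n with
    | true => (prt2 200 (Nat.sub n (Nat.add p p)) p).map (fun l => p :: p :: l)
    | false => []) ++
  (match Nat.ble (Nat.add p (Nat.pred p)) n with
    | true => (prt2 200 (Nat.sub n (Nat.add p (Nat.pred p))) (Nat.pred p)).map
        (fun l => p :: Nat.pred p :: l)
    | false => [])

/-- tight partitions of `n` with first part `≤ p` -/
def tightL (n : ℕ) : ℕ → List (List ℕ)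
  | 0 => []
  | p + 1 => tightP n (Nat.succ p) ++ tightL n p

theorem tightP_spec {n p : ℕ} (hn : n < 90) (hp : 2 ≤ p) {ν : List ℕ} (h : IsPart ν) (hs : ν.sum = n)
    (h0 : ν.getD 0 0 = p) (h1 : p ≤ ν.getD 1 0 + 1)
    (h2 : ν.countP (fun a => decide (a = 1)) ≤ 1) : ν ∈ tightP n p := by
  rcases ν with _ | ⟨a, _ | ⟨b, ν⟩⟩
  · simp at h0; omega
  · simp at h0 h1; omega
  · simp only [List.getD_cons_zero, List.getD_cons_succ] at h0 h1
    subst h0
    have hpw := List.pairwise_cons.1 h.1
    have hba : b ≤ a := hpw.1 b (by simp)
    have hpw2 := List.pairwise_cons.1 hpw.2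
    rw [List.sum_cons, List.sum_cons] at hs
    have hc : ν.countP (fun a => decide (a = 1)) ≤ 1 := by
      rw [List.countP_cons, List.countP_cons] at h2
      omega
    have hmem : ∀ c ∈ ν, 0 < c ∧ c ≤ b := fun c hc =>
      ⟨h.2 c (by simp [hc]), hpw2.1 c hc⟩
    unfold tightP
    rw [List.mem_append]
    by_cases hab : b = a
    · left
      subst hab
      have hle : Nat.ble (Nat.add b b) n = true := Nat.ble_eq_true_of_le (by
        show b + b ≤ n
        omega)
      rw [hle]
      dsimp only
      rw [List.mem_map]
      refine ⟨ν, prt2_spec _ _ _ ν hpw2.2 hmem hc ?_ ?_, rfl⟩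
      · show ν.sum = n - (b + b)
        omega
      · show n - (b + b) + b < 200
        omega
    · right
      have hb : b = a - 1 := by omega
      subst hb
      have hle : Nat.ble (Nat.add a (Nat.pred a)) n = true := Nat.ble_eq_true_of_le (by
        show a + (a - 1) ≤ n
        omega)
      rw [hle]
      dsimp only
      rw [List.mem_map]
      refine ⟨ν, prt2_spec _ _ _ ν hpw2.2 hmem hc ?_ ?_, rfl⟩
      · show ν.sum = n - (a + (a - 1))
        omega
      · show n - (a + (a - 1)) + (a - 1) < 200
        omega

theorem tightL_mem {n : ℕ} : ∀ (q p : ℕ) (ν : List ℕ), 1 ≤ p → p ≤ q → ν ∈ tightP n p → ν ∈ tightL n q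
  | 0, p, _, h1, h2, _ => by omega
  | q + 1, p, ν, h1, h2, h3 => by
    unfold tightL
    rw [List.mem_append]
    rcases Nat.lt_or_eq_of_le h2 with h | h
    · right
      exact tightL_mem q p ν h1 (by omega) h3
    · left
      subst h
      exact h3

/-! ### conjugates of partitions -/

theorem ispart_ext {l l' : List ℕ} (h : ∀ a ∈ l, 0 < a) (h' : ∀ a ∈ l', 0 < a)
    (he : ∀ i, l.getD i 0 = l'.getD i 0) : l = l' := by
  induction l generalizing l' with
  | nil =>
    rcases l' with _ | ⟨b, l'⟩
    · rfl
    · have := he 0
      simp at this
      have := h' b (by simp)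
      omega
  | cons a l ih =>
    rcases l' with _ | ⟨b, l'⟩
    · have := he 0
      simp at this
      have := h a (by simp)
      omega
    · have h0 := he 0
      simp at h0
      subst h0
      congr 1
      refine ih (fun x hx => h x (by simp [hx])) (fun x hx => h' x (by simp [hx])) (fun i => ?_)
      simpa using he (i + 1)

theorem ones_pos (n : ℕ) : ∀ (l : List ℕ), (∀ a ∈ l, 0 < a) → ∀ a ∈ ones n l, 0 < a := by
  induction n with
  | zero => exact fun l h => h
  | succ n ih =>
    intro l h
    cases l with
    | nil =>
      intro a ha
      rcases List.mem_cons.1 ha with rfl | ha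
      · omega
      · exact ih [] (by simp) a ha
    | cons b l =>
      intro a ha
      rcases List.mem_cons.1 ha with rfl | ha
      · omega
      · exact ih l (fun x hx => h x (by simp [hx])) a ha

theorem lconj_pos : ∀ (l : List ℕ), ∀ a ∈ lconj l, 0 < a
  | [] => by simp [lconj]
  | a :: l => ones_pos a (lconj l) (lconj_pos l)

/-- `countP` of thresholds is antitone -/
theorem countP_anti (l : List ℕ) {i j : ℕ} (h : i ≤ j) :
    l.countP (fun r => j < r) ≤ l.countP (fun r => i < r) := by
  induction l with
  | nil => simp
  | cons a l ih =>
    rw [List.countP_cons, List.countP_cons]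
    by_cases h1 : j < a
    · have h2 : i < a := by omega
      simp only [h1, h2, decide_true, if_true]
      omega
    · simp only [h1, decide_false, Bool.false_eq_true, if_false]
      omega

theorem pairwise_of_getD : ∀ (l : List ℕ), (∀ i j, i ≤ j → l.getD j 0 ≤ l.getD i 0) →
    l.Pairwise (· ≥ ·)
  | [], _ => List.Pairwise.nil
  | a :: l, h => by
    rw [List.pairwise_cons]
    refine ⟨fun b hb => ?_, pairwise_of_getD l fun i j hij => by simpa using h (i + 1) (j + 1) (by omega)⟩
    obtain ⟨i, hi, rfl⟩ := List.getElem_of_mem hb
    have := h 0 (i + 1) (by omega)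
    simp only [List.getD_cons_succ, List.getD_cons_zero] at this
    rw [List.getD_eq_getElem _ _ hi] at this
    exact this

theorem lconj_isPart (l : List ℕ) : IsPart (lconj l) :=
  ⟨pairwise_of_getD _ fun i j hij => by rw [getD_lconj, getD_lconj]; exact countP_anti l hij,
    lconj_pos l⟩

theorem sum_ones (n : ℕ) : ∀ l : List ℕ, (ones n l).sum = l.sum + n := by
  induction n with
  | zero => intro l; rfl
  | succ n ih =>
    intro l
    cases l with
    | nil =>
      have := ih []
      simp only [ones, List.sum_cons, this]
      simp
      omega
    | cons a l =>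
      simp only [ones, List.sum_cons, ih l]
      omega

theorem lconj_sum : ∀ l : List ℕ, (lconj l).sum = l.sum
  | [] => rfl
  | a :: l => by
    rw [lconj, sum_ones, lconj_sum l, List.sum_cons]
    omega

/-- count of the entries `> i` of a weakly decreasing list, and its entries -/
theorem countP_sorted : ∀ (l : List ℕ), l.Pairwise (· ≥ ·) → ∀ i j,
    (i < l.countP (fun r => j < r) ↔ j < l.getD i 0)
  | [], _, i, j => by simp
  | a :: l, h, i, j => by
    have h1 := List.pairwise_cons.1 h
    rw [List.countP_cons]
    by_cases ha : j < a
    · simp only [ha, decide_true, if_true]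
      cases i with
      | zero => simpa using ha
      | succ i =>
        rw [List.getD_cons_succ, ← countP_sorted l h1.2 i j]
        omega
    · have h0 : l.countP (fun r => j < r) = 0 := by
        rw [List.countP_eq_zero]
        intro b hb
        have := h1.1 b hb
        simp only [decide_eq_true_eq]
        have : b ≤ a := this
        omega
      simp only [ha, decide_false, Bool.false_eq_true, if_false, h0]
      constructor
      · intro h5; omega
      · intro h5
        exfalso
        have h2 : (a :: l).getD i 0 ≤ a := by
          have := sh_getD_anti h (Nat.zero_le i)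
          simpa using this
        omega

theorem lconj_lconj {l : List ℕ} (h : IsPart l) : lconj (lconj l) = l := by
  refine ispart_ext (lconj_pos _) h.2 fun i => ?_
  have key : ∀ j, j < (lconj (lconj l)).getD i 0 ↔ j < l.getD i 0 := by
    intro j
    rw [getD_lconj, countP_sorted _ (lconj_isPart l).1, getD_lconj, countP_sorted _ h.1]
  by_contra hne
  rcases Nat.lt_or_gt_of_ne hne with h1 | h1
  · have := (key _).2 h1
    omega
  · have := (key _).1 h1
    omega

end Crest.Agent.SG
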