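import Mathlib
import Crest.Agent.Saxl.Defs

/-!
# Row 195, S0298, small `n`: the semigroup property of Kronecker positivity

Definitions shared by all chunks of `Crest/Agent/SG`.

* `Tb a A`: `(a, A)` (row word, column word) is a tableau of the letters `X`.
* `ph a A g`: the coefficient of `g` in the Young symmetriser `∑ r c sgn(c)` (`r` row preserving, `c`
  column preserving): it is `sgn c` if `a ∘ g = a ∘ c` for some `c` with `A ∘ c = A`, else `0`.
* `JJ`: triple inner product of three such functions; `JN`: it is nonzero for some positions.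
* `EPol`: the "Kronecker polynomial" of three systems of columns.  It is multiplicative for disjoint unions.
* `Good α β γ`: Kronecker positivity for the shapes with row lengths `α`, `β`, `γ` (lists).
-/

set_option autoImplicit false

namespace Crest.Agent.SG

open Finset Equiv Crest.Agent.Saxl

/-- `(a, A)` (row word, column word) is a tableau. -/
abbrev Tb {X : Type} (a A : Word X) : Prop := IsTab (fun _ => 0) a A

/-- `(a, A)` is a system of columns: each block of `A` is numbered by `a` with `0, 1, .., h - 1`
(the blocks of `A` need not be labelled by decreasing height). -/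
structure IsCol {X : Type} (a A : Word X) : Prop where
  inj : Function.Injective (fun x => (a x, A x))
  lower : ∀ x i, i ≤ a x → ∃ y, A y = A x ∧ a y = i

section
variable {X : Type} [Fintype X] [DecidableEq X]

/-- The coefficient function of the Young symmetriser. -/
def ph (a A : Word X) (g : Perm X) : ℤ :=
  ∑ σ ∈ Rs A, if a ∘ g = a ∘ σ then ((Perm.sign σ : ℤˣ) : ℤ) else 0

/-- The triple product. -/
def JJ (a A b B c C : Word X) (u v w : Perm X) : ℤ :=
  ∑ g : Perm X, ph a A (u * g) * ph b B (v * g) * ph c C (w * g)

/-- The triple product is nonzero for some positions. -/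
def JN (a A b B c C : Word X) : Prop := ∃ u v w : Perm X, JJ a A b B c C u v w ≠ 0

/-- The Kronecker polynomial of three systems of columns, in the variables `X (i, j, k)`. -/
noncomputable def EPol (a A b B c C : Word X) : MvPolynomial (ℕ × ℕ × ℕ) ℤ :=
  ∑ σ ∈ Rs A, ∑ τ ∈ Rs B, ∑ υ ∈ Rs C,
    MvPolynomial.C (((Perm.sign σ : ℤˣ) : ℤ) * ((Perm.sign τ : ℤˣ) : ℤ) *
        ((Perm.sign υ : ℤˣ) : ℤ)) *
      ∏ x, MvPolynomial.X (a (σ x), b (τ x), c (υ x))

/-- The row sizes of `a` are the entries of the list `l` (continued by zeros). -/
def RowSz (a : Word X) (l : List ℕ) : Prop :=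
  ∀ i, (univ.filter (fun x => a x = i)).card = l.getD i 0

end

/-- Kronecker positivity of three shapes given by their lists of row lengths. -/
def Good (α β γ : List ℕ) : Prop :=
  ∃ (X : Type) (_ : Fintype X) (_ : DecidableEq X) (a A b B c C : Word X),
    Tb a A ∧ Tb b B ∧ Tb c C ∧ RowSz a α ∧ RowSz b β ∧ RowSz c γ ∧ EPol a A b B c C ≠ 0

/-- Entrywise sum (with zero padding). -/
def ladd : List ℕ → List ℕ → List ℕ
  | [], l => l
  | a :: l, [] => a :: l
  | a :: l, b :: l' => (a + b) :: ladd l l'

/-- Add one to the first `n` entries. -/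
def ones : ℕ → List ℕ → List ℕ
  | 0, l => l
  | n + 1, [] => 1 :: ones n []
  | n + 1, a :: l => (a + 1) :: ones n l

/-- The conjugate partition. -/
def lconj : List ℕ → List ℕ
  | [] => []
  | a :: l => ones a (lconj l)

/-- A (weakly decreasing) partition, positive parts. -/
def IsPart (l : List ℕ) : Prop := l.Pairwise (· ≥ ·) ∧ ∀ a ∈ l, 0 < a

/-- The tensor square of the irreducible module of shape `l` contains everything. -/
def Full (l : List ℕ) : Prop := IsPart l ∧ ∀ ν : List ℕ, IsPart ν → ν.sum = l.sum → Good l l ν

end Crest.Agent.SG
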