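import Crest.Agent.SG.Defs

/-!
CHUNK R195-SG-EJ (medium).  `Defs` only.
-/

set_option autoImplicit false

namespace Crest.Agent.SG

open Finset Equiv Crest.Agent.Saxl

variable {X : Type} [Fintype X] [DecidableEq X]

/-- the multiset of values of a triple of words, as a monomial -/
noncomputable def mon (Y1 Y2 Y3 : Word X) : (ℕ × ℕ × ℕ) →₀ ℕ :=
  ∑ x, Finsupp.single (Y1 x, Y2 x, Y3 x) 1

omit [DecidableEq X] in
theorem ej_mon_apply (Y1 Y2 Y3 : Word X) (v : ℕ × ℕ × ℕ) :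
    mon Y1 Y2 Y3 v = Fintype.card {x // (Y1 x, Y2 x, Y3 x) = v} := by
  unfold mon
  rw [Finsupp.finsetSum_apply, Fintype.card_subtype, Finset.card_filter]
  exact Finset.sum_congr rfl fun x _ => by rw [Finsupp.single_apply]

/-- PROOF: `←` reindex the sum by `g`; `→`: the fibres of `x ↦ (Y1 x, Y2 x, Y3 x)` and of the primed map over
each value have the same cardinality (the coefficient of the monomial), so choose bijections of the
fibres (e.g. `Fintype.card` of subtypes, `Equiv.sigmaFiberEquiv`, `Equiv.ofFiberEquiv`). -/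
theorem mon_eq_iff (Y1 Y2 Y3 Z1 Z2 Z3 : Word X) :
    mon Z1 Z2 Z3 = mon Y1 Y2 Y3 ↔ ∃ g : Perm X, Z1 = Y1 ∘ g ∧ Z2 = Y2 ∘ g ∧ Z3 = Y3 ∘ g := by
  constructor
  · intro h
    have h1 : ∀ v : ℕ × ℕ × ℕ, Nonempty
        ({x // (Z1 x, Z2 x, Z3 x) = v} ≃ {x // (Y1 x, Y2 x, Y3 x) = v}) := by
      intro v
      rw [← Fintype.card_eq, ← ej_mon_apply, ← ej_mon_apply, h]
    have e : ∀ v : ℕ × ℕ × ℕ,
        ({x // (Z1 x, Z2 x, Z3 x) = v} ≃ {x // (Y1 x, Y2 x, Y3 x) = v}) := fun v => (h1 v).some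
    let g : Perm X := Equiv.ofFiberEquiv (f := fun x => (Z1 x, Z2 x, Z3 x))
      (g := fun x => (Y1 x, Y2 x, Y3 x)) e
    have hg : ∀ x, (Y1 (g x), Y2 (g x), Y3 (g x)) = (Z1 x, Z2 x, Z3 x) := fun x =>
      Equiv.ofFiberEquiv_map (f := fun x => (Z1 x, Z2 x, Z3 x))
        (g := fun x => (Y1 x, Y2 x, Y3 x)) e x
    refine ⟨g, ?_, ?_, ?_⟩
    · funext x
      exact (congrArg Prod.fst (hg x)).symm
    · funext x
      exact (congrArg (fun q => q.2.1) (hg x)).symm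
    · funext x
      exact (congrArg (fun q => q.2.2) (hg x)).symm
  · rintro ⟨g, h1, h2, h3⟩
    subst h1 h2 h3
    unfold mon
    exact Equiv.sum_comp g (fun x => Finsupp.single (Y1 x, Y2 x, Y3 x) 1)

omit [DecidableEq X] in
theorem ej_prod_X (Y1 Y2 Y3 : Word X) :
    (∏ x, MvPolynomial.X (Y1 x, Y2 x, Y3 x) : MvPolynomial (ℕ × ℕ × ℕ) ℤ) =
      MvPolynomial.monomial (mon Y1 Y2 Y3) 1 := by
  unfold mon
  rw [MvPolynomial.monomial_sum_one]
  rfl

/-- coefficients of the Kronecker polynomial -/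
theorem ej_coeff (a A b B c C : Word X) (M : (ℕ × ℕ × ℕ) →₀ ℕ) :
    (EPol a A b B c C).coeff M = ∑ σ ∈ Rs A, ∑ τ ∈ Rs B, ∑ υ ∈ Rs C,
      if mon (a ∘ σ) (b ∘ τ) (c ∘ υ) = M then
        (((Perm.sign σ : ℤˣ) : ℤ) * ((Perm.sign τ : ℤˣ) : ℤ) * ((Perm.sign υ : ℤˣ) : ℤ)) else 0 := by
  unfold EPol
  rw [MvPolynomial.coeff_sum]
  refine Finset.sum_congr rfl fun σ _ => ?_
  rw [MvPolynomial.coeff_sum]
  refine Finset.sum_congr rfl fun τ _ => ?_
  rw [MvPolynomial.coeff_sum]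
  refine Finset.sum_congr rfl fun υ _ => ?_
  have := ej_prod_X (a ∘ σ) (b ∘ τ) (c ∘ υ)
  simp only [Function.comp_apply] at this
  rw [this, MvPolynomial.C_mul_monomial, mul_one, MvPolynomial.coeff_monomial]

/-- number of coincidences -/
theorem ej_count (U1 U2 U3 V1 V2 V3 : Word X) :
    ((univ.filter fun g : Perm X => U1 ∘ g = V1 ∧ U2 ∘ g = V2 ∧ U3 ∘ g = V3).card : ℤ) =
      if mon V1 V2 V3 = mon U1 U2 U3 then
        ((univ.filter fun g : Perm X => U1 ∘ g = U1 ∧ U2 ∘ g = U2 ∧ U3 ∘ g = U3).card : ℤ)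
      else 0 := by
  split_ifs with h
  · obtain ⟨g0, h1, h2, h3⟩ := (mon_eq_iff U1 U2 U3 V1 V2 V3).1 h
    subst h1 h2 h3
    norm_cast
    refine Finset.card_bij' (fun g _ => g * g0⁻¹) (fun g _ => g * g0) ?_ ?_ ?_ ?_
    · intro g hg
      simp only [mem_filter, mem_univ, true_and] at hg ⊢
      obtain ⟨k1, k2, k3⟩ := hg
      refine ⟨?_, ?_, ?_⟩
      · funext x
        have := congrFun k1 (g0⁻¹ x)
        simpa using this
      · funext x
        have := congrFun k2 (g0⁻¹ x)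
        simpa using this
      · funext x
        have := congrFun k3 (g0⁻¹ x)
        simpa using this
    · intro g hg
      simp only [mem_filter, mem_univ, true_and] at hg ⊢
      obtain ⟨k1, k2, k3⟩ := hg
      refine ⟨?_, ?_, ?_⟩
      · funext x
        have := congrFun k1 (g0 x)
        simpa using this
      · funext x
        have := congrFun k2 (g0 x)
        simpa using this
      · funext x
        have := congrFun k3 (g0 x)
        simpa using this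
    · intro g _
      simp
    · intro g _
      simp
  · rw [Finset.card_eq_zero.mpr]
    · rfl
    · rw [Finset.filter_eq_empty_iff]
      rintro g - ⟨h1, h2, h3⟩
      exact h ((mon_eq_iff U1 U2 U3 V1 V2 V3).2 ⟨g, h1.symm, h2.symm, h3.symm⟩)

/-- the triple product is a coefficient of the Kronecker polynomial -/
theorem ej_JJ (a A b B c C : Word X) (u v w : Perm X) :
    JJ a A b B c C u v w =
      ((univ.filter fun g : Perm X => (a ∘ u) ∘ g = a ∘ u ∧ (b ∘ v) ∘ g = b ∘ v ∧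
        (c ∘ w) ∘ g = c ∘ w).card : ℤ) *
        (EPol a A b B c C).coeff (mon (a ∘ u) (b ∘ v) (c ∘ w)) := by
  rw [ej_coeff, Finset.mul_sum]
  unfold JJ ph
  have h1 : ∀ g : Perm X,
      (∑ σ ∈ Rs A, if a ∘ (u * g : Perm X) = a ∘ σ then ((Perm.sign σ : ℤˣ) : ℤ) else 0) *
        (∑ σ ∈ Rs B, if b ∘ (v * g : Perm X) = b ∘ σ then ((Perm.sign σ : ℤˣ) : ℤ) else 0) *
        (∑ σ ∈ Rs C, if c ∘ (w * g : Perm X) = c ∘ σ then ((Perm.sign σ : ℤˣ) : ℤ) else 0) =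
      ∑ σ ∈ Rs A, ∑ τ ∈ Rs B, ∑ υ ∈ Rs C,
        if (a ∘ u) ∘ g = a ∘ σ ∧ (b ∘ v) ∘ g = b ∘ τ ∧ (c ∘ w) ∘ g = c ∘ υ then
          (((Perm.sign σ : ℤˣ) : ℤ) * ((Perm.sign τ : ℤˣ) : ℤ) * ((Perm.sign υ : ℤˣ) : ℤ))
        else 0 := by
    intro g
    rw [Finset.sum_mul_sum, Finset.sum_mul]
    refine Finset.sum_congr rfl fun σ _ => ?_
    rw [Finset.sum_mul]
    refine Finset.sum_congr rfl fun τ _ => ?_
    rw [Finset.mul_sum]
    refine Finset.sum_congr rfl fun υ _ => ?_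
    have e1 : a ∘ (u * g : Perm X) = (a ∘ u) ∘ g := rfl
    have e2 : b ∘ (v * g : Perm X) = (b ∘ v) ∘ g := rfl
    have e3 : c ∘ (w * g : Perm X) = (c ∘ w) ∘ g := rfl
    rw [e1, e2, e3]
    by_cases k1 : (a ∘ u) ∘ g = a ∘ σ
    · by_cases k2 : (b ∘ v) ∘ g = b ∘ τ
      · by_cases k3 : (c ∘ w) ∘ g = c ∘ υ
        · rw [if_pos k1, if_pos k2, if_pos k3, if_pos ⟨k1, k2, k3⟩]
        · simp [k3]
      · simp [k2]
    · simp [k1]
  rw [Finset.sum_congr rfl fun g _ => h1 g, Finset.sum_comm]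
  refine Finset.sum_congr rfl fun σ _ => ?_
  rw [Finset.sum_comm, Finset.mul_sum]
  refine Finset.sum_congr rfl fun τ _ => ?_
  rw [Finset.sum_comm, Finset.mul_sum]
  refine Finset.sum_congr rfl fun υ _ => ?_
  rw [← Finset.sum_filter, Finset.sum_const, nsmul_eq_mul]
  have h2 := ej_count (a ∘ u) (b ∘ v) (c ∘ w) (a ∘ σ) (b ∘ τ) (c ∘ υ)
  have h3 : (((univ.filter fun g : Perm X =>
      (a ∘ u) ∘ g = a ∘ σ ∧ (b ∘ v) ∘ g = b ∘ τ ∧ (c ∘ w) ∘ g = c ∘ υ).card : ℕ) : ℤ) = _ := h2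
  rw [h3]
  split_ifs with k
  · rfl
  · rw [zero_mul, mul_zero]

/-- PROOF. `JJ a A b B c C u v w = N * coeff (mon (a∘u) (b∘v) (c∘w)) (EPol ..)`, where `N ≥ 1` is the number of
`g` fixing the triple `(a∘u, b∘v, c∘w)`: expand the three `ph`, exchange sums: both sides are
`∑_{σ ∈ Rs A, τ ∈ Rs B, υ ∈ Rs C} sgn σ sgn τ sgn υ * #{g : a∘u∘g = a∘σ, b∘v∘g = b∘τ, c∘w∘g = c∘υ}` (the inner number is
`N` if `mon (a∘σ) (b∘τ) (c∘υ) = mon (a∘u) (b∘v) (c∘w)` and `0` otherwise, by `mon_eq_iff`).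
If `EPol ≠ 0` some coefficient is nonzero; it is the coefficient of some `mon (a∘σ) (b∘τ) (c∘υ)`, so
`JJ .. σ τ υ ≠ 0`. -/
theorem JN_iff (a A b B c C : Word X) : JN a A b B c C ↔ EPol a A b B c C ≠ 0 := by
  constructor
  · rintro ⟨u, v, w, h⟩ h0
    rw [ej_JJ, h0] at h
    simp at h
  · intro h
    obtain ⟨M, hM⟩ := MvPolynomial.ne_zero_iff.1 h
    rw [ej_coeff] at hM
    obtain ⟨σ, -, hσ⟩ := Finset.exists_ne_zero_of_sum_ne_zero hM
    obtain ⟨τ, -, hτ⟩ := Finset.exists_ne_zero_of_sum_ne_zero hσ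
    obtain ⟨υ, -, hυ⟩ := Finset.exists_ne_zero_of_sum_ne_zero hτ
    have hMeq : mon (a ∘ σ) (b ∘ τ) (c ∘ υ) = M := by
      by_contra hne
      exact hυ (if_neg hne)
    refine ⟨σ, τ, υ, ?_⟩
    rw [ej_JJ, hMeq]
    rw [← ej_coeff] at hM
    refine mul_ne_zero ?_ hM
    have : 0 < (univ.filter fun g : Perm X => (a ∘ σ) ∘ g = a ∘ σ ∧ (b ∘ τ) ∘ g = b ∘ τ ∧
        (c ∘ υ) ∘ g = c ∘ υ).card := by
      rw [Finset.card_pos]
      exact ⟨1, by simp⟩
    exact_mod_cast this.ne'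

end Crest.Agent.SG
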