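import Crest.Agent.SG.Check

/-!
# Fast certificate checker

A partition is packed in a natural number, base 4096, first (largest) part = lowest digit.
A derivation is a natural number, read in base 64 (lowest digit first), an expression in prefix
notation:
* `1 .. 6`: leaf; next digit `L`, then `L` digits = a list `x`; `α = conj x`, `m = |α|`; the triples
  `([m], α, α)`, `(α, [m], α)`, `(α, α, [m])`, and `(1^m, α', α)`, `(α', 1^m, α)`, `(α', α, 1^m)`;
* `7 .. 10`: sum of the two triples that follow, then transpose no / the 1st+2nd / 1st+3rd /
  2nd+3rd components;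
* `11`: generator, followed by one digit (its index).
The evaluation functions are written with recursors and raw literals to be fast in the kernel.
-/

set_option autoImplicit false

namespace Crest.Agent.SG

open Finset Equiv Crest.Agent.Saxl

/-- packed list -/
noncomputable def code (l : List ℕ) : ℕ :=
  List.rec (motive := fun _ => ℕ) (nat_lit 0) (fun a _ ih => Nat.add a (Nat.mul (nat_lit 4096) ih)) l

/-- `∑ 4096 ^ (digit)` over the digits base `b`, in groups of four (`b2 = b^2`, ..) -/
noncomputable def sg (b b2 b3 b4 : ℕ) (f : ℕ) : ℕ → ℕ :=
  Nat.rec (motive := fun _ => ℕ → ℕ) (fun _ => nat_lit 0)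
    (fun _ ih A => Nat.rec (motive := fun _ => ℕ) (nat_lit 0)
      (fun C _ =>
        Nat.add
          (Nat.add (Nat.pow (nat_lit 4096) (Nat.mod (Nat.succ C) b))
            (Nat.pow (nat_lit 4096) (Nat.mod (Nat.div (Nat.succ C) b) b)))
          (Nat.add
            (Nat.add (Nat.pow (nat_lit 4096) (Nat.mod (Nat.div (Nat.succ C) b2) b))
              (Nat.pow (nat_lit 4096) (Nat.mod (Nat.div (Nat.succ C) b3) b)))
            (ih (Nat.div (Nat.succ C) b4)))) A) f

/-- packed conjugate -/
noncomputable def cj (A : ℕ) : ℕ :=
  Nat.div (sg (nat_lit 4096) (nat_lit 16777216) (nat_lit 68719476736) (nat_lit 281474976710656)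
    (nat_lit 64) A) (nat_lit 4095)

/-- packed conjugate of a list packed in base 64 -/
noncomputable def cx (A : ℕ) : ℕ :=
  Nat.div (sg (nat_lit 64) (nat_lit 4096) (nat_lit 262144) (nat_lit 16777216)
    (nat_lit 64) A) (nat_lit 4095)

/-- evaluation of a derivation, with continuation -/
noncomputable def ev (gens : List (ℕ × ℕ × ℕ)) (f : ℕ) : ℕ → (ℕ → ℕ → ℕ → ℕ → Bool) → Bool :=
  Nat.rec (motive := fun _ => ℕ → (ℕ → ℕ → ℕ → ℕ → Bool) → Bool) (fun _ _ => false)
    (fun _ ih N k => Nat.rec (motive := fun _ => Bool) false
      (fun M _ =>
        Bool.rec (motive := fun _ => Bool)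
          -- not a leaf
          (Bool.rec (motive := fun _ => Bool)
            -- generator
            (k (gens.getD (Nat.mod (Nat.div (Nat.succ M) (nat_lit 64)) (nat_lit 64)) (0, 0, 0)).1
              (gens.getD (Nat.mod (Nat.div (Nat.succ M) (nat_lit 64)) (nat_lit 64)) (0, 0, 0)).2.1
              (gens.getD (Nat.mod (Nat.div (Nat.succ M) (nat_lit 64)) (nat_lit 64)) (0, 0, 0)).2.2
              (Nat.div (Nat.succ M) (nat_lit 4096)))
            -- sum
            (ih (Nat.div (Nat.succ M) (nat_lit 64)) fun a b c N1 =>
              ih N1 fun a' b' c' N2 =>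
                Bool.rec (motive := fun _ => Bool) false
                  (Bool.rec (motive := fun _ => Bool)
                    (Bool.rec (motive := fun _ => Bool)
                      (Bool.rec (motive := fun _ => Bool)
                        (k (Nat.add a a') (cj (Nat.add b b')) (cj (Nat.add c c')) N2)
                        (k (cj (Nat.add a a')) (Nat.add b b') (cj (Nat.add c c')) N2)
                        (Nat.beq (Nat.mod (Nat.succ M) (nat_lit 64)) (nat_lit 9)))
                      (k (cj (Nat.add a a')) (cj (Nat.add b b')) (Nat.add c c') N2)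
                      (Nat.beq (Nat.mod (Nat.succ M) (nat_lit 64)) (nat_lit 8)))
                    (k (Nat.add a a') (Nat.add b b') (Nat.add c c') N2)
                    (Nat.beq (Nat.mod (Nat.succ M) (nat_lit 64)) (nat_lit 7)))
                  (Nat.ble (Nat.add (Nat.mod a (nat_lit 4095)) (Nat.mod a' (nat_lit 4095)))
                    (nat_lit 255)))
            (Nat.ble (Nat.mod (Nat.succ M) (nat_lit 64)) (nat_lit 10)))
          -- leaf
          ((fun P =>
            (fun α N' =>
              (fun m =>
                Bool.rec (motive := fun _ => Bool) false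
                  (Bool.rec (motive := fun _ => Bool)
                    -- columns
                    (Bool.rec (motive := fun _ => Bool)
                      (Bool.rec (motive := fun _ => Bool)
                        (k (cj α) α (Nat.div (Nat.pow (nat_lit 4096) m) (nat_lit 4095)) N')
                        (k (cj α) (Nat.div (Nat.pow (nat_lit 4096) m) (nat_lit 4095)) α N')
                        (Nat.beq (Nat.mod (Nat.succ M) (nat_lit 64)) (nat_lit 5)))
                      (k (Nat.div (Nat.pow (nat_lit 4096) m) (nat_lit 4095)) (cj α) α N')
                      (Nat.beq (Nat.mod (Nat.succ M) (nat_lit 64)) (nat_lit 4)))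
                    -- rows
                    (Bool.rec (motive := fun _ => Bool)
                      (Bool.rec (motive := fun _ => Bool)
                        (k α α m N')
                        (k α m α N')
                        (Nat.beq (Nat.mod (Nat.succ M) (nat_lit 64)) (nat_lit 2)))
                      (k m α α N')
                      (Nat.beq (Nat.mod (Nat.succ M) (nat_lit 64)) (nat_lit 1)))
                    (Nat.ble (Nat.mod (Nat.succ M) (nat_lit 64)) (nat_lit 3)))
                  (Nat.ble m (nat_lit 255)))
              (Nat.mod α (nat_lit 4095)))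
            (cx (Nat.mod (Nat.div (Nat.succ M) (nat_lit 4096)) P))
            (Nat.div (Nat.succ M) (Nat.mul (nat_lit 4096) P)))
          (Nat.pow (nat_lit 64) (Nat.mod (Nat.div (Nat.succ M) (nat_lit 64)) (nat_lit 64))))
          (Nat.ble (Nat.mod (Nat.succ M) (nat_lit 64)) (nat_lit 6))) N) f

/-- check one derivation: `l`, `c` packed -/
noncomputable def chkF1 (gens : List (ℕ × ℕ × ℕ)) (l c : ℕ) (d : ℕ) : Bool :=
  ev gens (nat_lit 60) d fun x y z _ =>
    Bool.rec (motive := fun _ => Bool) false
      (Bool.rec (motive := fun _ => Bool) false (Nat.beq z c) (Nat.beq y l)) (Nat.beq x l)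

/-- check all -/
noncomputable def chkF (gens : List (ℕ × ℕ × ℕ)) (l : ℕ) (r : List (List ℕ)) : List ℕ → Bool :=
  List.rec (motive := fun _ => List ℕ → Bool) (fun _ => true)
    (fun ν _ ih ds =>
      (fun c =>
        Bool.rec (motive := fun _ => Bool)
          (List.rec (motive := fun _ => Bool) false
            (fun d ds' _ => Bool.rec (motive := fun _ => Bool) false (ih ds') (chkF1 gens l c d)) ds)
          (ih ds) (Nat.ble (Nat.succ c) (cj c)))
      (code ν)) r

end Crest.Agent.SG
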