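import Crest.Agent.SG.Defs
import Crest.Agent.Saxl.IrrA

/-!
CHUNK R195-SG-TR (medium).  `Defs`, `Saxl.IrrA` (`EP_sq`).
-/

set_option autoImplicit false

namespace Crest.Agent.SG

open Finset Equiv Crest.Agent.Saxl

variable {X : Type} [Fintype X] [DecidableEq X]

private theorem tr_mem_Rs {w : Word X} {g : Perm X} : g ∈ Rs w ↔ w ∘ g = w := by
  simp [Rs]

private theorem tr_inv_mem {w : Word X} {g : Perm X} (h : g ∈ Rs w) : g⁻¹ ∈ Rs w := by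
  rw [tr_mem_Rs] at h ⊢
  funext x
  have h3 := congrFun h (g⁻¹ x)
  simpa using h3.symm

private theorem tr_sum_inv {M : Type*} [AddCommMonoid M] (w : Word X) (f : Perm X → M) :
    ∑ r ∈ Rs w, f r⁻¹ = ∑ r ∈ Rs w, f r :=
  Finset.sum_nbij' (fun r => r⁻¹) (fun r => r⁻¹) (fun _ h => tr_inv_mem h)
    (fun _ h => tr_inv_mem h) (fun _ _ => inv_inv _) (fun _ _ => inv_inv _) (fun _ _ => rfl)

private theorem tr_sgn_inv (g : Perm X) : ((Perm.sign g⁻¹ : ℤˣ) : ℤ) = ((Perm.sign g : ℤˣ) : ℤ) := by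
  rw [Perm.sign_inv]

private theorem tr_sgn_mul (g h : Perm X) :
    ((Perm.sign (g * h) : ℤˣ) : ℤ) = ((Perm.sign g : ℤˣ) : ℤ) * ((Perm.sign h : ℤˣ) : ℤ) := by
  rw [Perm.sign_mul]; push_cast; rfl

private theorem tr_sgn_sq (g : Perm X) :
    ((Perm.sign g : ℤˣ) : ℤ) * ((Perm.sign g : ℤˣ) : ℤ) = 1 := by
  rcases Int.units_eq_one_or (Perm.sign g) with h | h <;> simp [h]

private theorem tr_mul4 (s1 s2 s3 s4 : Finset (Perm X)) (K H : ℂ) (f g : Perm X → Perm X → ℂ) :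
    K * (∑ x ∈ s1, ∑ y ∈ s2, f x y) * (∑ z ∈ s3, ∑ t ∈ s4, g z t) * H =
      ∑ x ∈ s1, ∑ y ∈ s2, ∑ z ∈ s3, ∑ t ∈ s4, K * f x y * g z t * H := by
  have h1 : ∀ x y, ∑ z ∈ s3, ∑ t ∈ s4, K * f x y * g z t * H =
      K * f x y * (∑ z ∈ s3, ∑ t ∈ s4, g z t) * H := by
    intro x y
    rw [Finset.mul_sum, Finset.sum_mul]
    refine Finset.sum_congr rfl fun z _ => ?_
    rw [Finset.mul_sum, Finset.sum_mul]
  rw [Finset.sum_congr rfl fun x _ => Finset.sum_congr rfl fun y _ => h1 x y]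
  generalize (∑ z ∈ s3, ∑ t ∈ s4, g z t) = G
  simp only [Finset.mul_sum, Finset.sum_mul]

/-- moving the tableau by a permutation conjugates `ph` -/
theorem ph_conj (a A : Word X) (h g : Perm X) :
    ph (a ∘ h) (A ∘ h) (h⁻¹ * g * h) = ph a A g := by
  unfold ph
  refine Finset.sum_nbij' (fun σ => h * σ * h⁻¹) (fun σ => h⁻¹ * σ * h) ?_ ?_ ?_ ?_ ?_
  · intro σ hσ
    rw [tr_mem_Rs] at hσ ⊢
    funext x
    have := congrFun hσ (h⁻¹ x)
    simpa using this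
  · intro σ hσ
    rw [tr_mem_Rs] at hσ ⊢
    funext x
    have := congrFun hσ (h x)
    simpa using this
  · intro σ _; group
  · intro σ _; group
  · intro σ _
    have hs : ((Perm.sign (h * σ * h⁻¹) : ℤˣ) : ℤ) = ((Perm.sign σ : ℤˣ) : ℤ) := by
      rw [tr_sgn_mul, tr_sgn_mul, tr_sgn_inv, mul_comm, ← mul_assoc, tr_sgn_sq, one_mul]
    rw [hs]
    congr 1
    apply propext
    constructor
    · intro h1
      funext x
      have := congrFun h1 (h⁻¹ x)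
      simpa using this
    · intro h1
      funext x
      have := congrFun h1 (h x)
      simpa using this

private theorem ph_eq' (a A : Word X) (g : Perm X) :
    ph a A g = ∑ r ∈ Rs a, ∑ c ∈ Rs A, if g = r * c then ((Perm.sign c : ℤˣ) : ℤ) else 0 := by
  unfold ph
  rw [Finset.sum_comm]
  refine Finset.sum_congr rfl fun σ _ => ?_
  by_cases h : a ∘ g = a ∘ σ
  · rw [if_pos h]
    have hm : g * σ⁻¹ ∈ Rs a := by
      rw [tr_mem_Rs]
      funext x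
      have := congrFun h (σ⁻¹ x)
      simpa using this
    rw [Finset.sum_eq_single_of_mem _ hm]
    · rw [if_pos (by group)]
    · intro r _ hr
      rw [if_neg]
      intro h1
      exact hr (by rw [h1]; group)
  · rw [if_neg h]
    symm
    refine Finset.sum_eq_zero fun r hr => ?_
    rw [if_neg]
    intro h1
    apply h
    rw [tr_mem_Rs] at hr
    funext x
    have := congrFun hr (σ x)
    rw [h1]
    simpa using this

/-- `ph a A g = sgn c` for `g = r c`, `r ∈ Rs a`, `c ∈ Rs A`, a unique factorisation, and `0` otherwise. -/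
theorem ph_eq {a A : Word X} (h : Tb a A) (g : Perm X) :
    ph a A g = ∑ r ∈ Rs a, ∑ c ∈ Rs A, if g = r * c then ((Perm.sign c : ℤˣ) : ℤ) else 0 :=
  ph_eq' a A g

private theorem ph_inv' (a A : Word X) (g : Perm X) :
    ph A a g⁻¹ = ((Perm.sign g : ℤˣ) : ℤ) * ph a A g := by
  rw [ph_eq' A a, ph_eq' a A, Finset.mul_sum, Finset.sum_comm]
  rw [← tr_sum_inv a]
  refine Finset.sum_congr rfl fun r _ => ?_
  rw [Finset.mul_sum, ← tr_sum_inv A]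
  refine Finset.sum_congr rfl fun c _ => ?_
  by_cases h : g = r * c
  · rw [if_pos (by rw [h]; group), if_pos h, h, tr_sgn_mul, tr_sgn_inv, mul_assoc, tr_sgn_sq, mul_one]
  · rw [if_neg, if_neg h, mul_zero]
    intro h1
    apply h
    rw [← inv_inj, h1]
    group

/-- PROOF: `g = r c` iff `g⁻¹ = c⁻¹ r⁻¹`, `sgn r = sgn g sgn c`; use `ph_eq` for both. -/
theorem ph_inv {a A : Word X} (h : Tb a A) (g : Perm X) :
    ph A a g⁻¹ = ((Perm.sign g : ℤˣ) : ℤ) * ph a A g := ph_inv' a A g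

/-- PROOF. In the group algebra `E = EP a A = R C` (`R = ∑ r`, `C = ∑ sgn c c`), `ph a A` is its coefficient function
(`ph_eq`). `EP_sq`: `R C R C = γ R C`; apply `g ↦ g⁻¹`: `C R C R = γ C R`. Compare coefficients at `g`:
`∑_{c, r} sgn c * ph a A (c⁻¹ g r⁻¹) = γ ph a A g⁻¹`. (Or directly from `∑_h ph(h) ph(h⁻¹ g) = γ ph(g)`.) -/
theorem ph_flip {a A : Word X} (h : Tb a A) : ∃ γ : ℂ, γ ≠ 0 ∧ ∀ g : Perm X,
    γ * ((ph a A g⁻¹ : ℤ) : ℂ) = ∑ c ∈ Rs A, ∑ r ∈ Rs a,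
      (((Perm.sign c : ℤˣ) : ℤ) : ℂ) * ((ph a A (c⁻¹ * g * r⁻¹) : ℤ) : ℂ) := by
  obtain ⟨γ, hγ, hE⟩ := EP_sq h
  refine ⟨γ, hγ, fun g => ?_⟩
  -- coefficient of `EP`
  have hc : ∀ x : Perm X, (EP a A).coeff x = ((ph a A x : ℤ) : ℂ) := by
    intro x
    rw [ph_eq' a A x]
    unfold EP
    simp only [MonoidAlgebra.coeff_sum, Finsupp.finsetSum_apply, MonoidAlgebra.coeff_smul,
      Finsupp.smul_apply, MonoidAlgebra.of_apply, MonoidAlgebra.coeff_single,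
      Finsupp.single_apply, smul_eq_mul]
    push_cast
    refine Finset.sum_congr rfl fun r _ => Finset.sum_congr rfl fun c _ => ?_
    by_cases hx : x = r * c
    · rw [if_pos hx.symm, if_pos hx, mul_one]
    · rw [if_neg (Ne.symm hx), if_neg hx, mul_zero]
  -- coefficient of `EP * EP`
  have hEE : EP a A * EP a A = ∑ r1 ∈ Rs a, ∑ c1 ∈ Rs A, ∑ r2 ∈ Rs a, ∑ c2 ∈ Rs A,
      ((((Perm.sign c1 : ℤˣ) : ℤ) : ℂ) * (((Perm.sign c2 : ℤˣ) : ℤ) : ℂ)) •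
        MonoidAlgebra.of ℂ (Perm X) (r1 * c1 * (r2 * c2)) := by
    unfold EP
    rw [Finset.sum_mul]
    refine Finset.sum_congr rfl fun r1 _ => ?_
    rw [Finset.sum_mul]
    refine Finset.sum_congr rfl fun c1 _ => ?_
    rw [Finset.mul_sum]
    refine Finset.sum_congr rfl fun r2 _ => ?_
    rw [Finset.mul_sum]
    refine Finset.sum_congr rfl fun c2 _ => ?_
    rw [smul_mul_smul_comm, ← map_mul]
  have h1 : γ * ((ph a A g⁻¹ : ℤ) : ℂ) = (EP a A * EP a A).coeff g⁻¹ := by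
    rw [hE, MonoidAlgebra.coeff_smul, Finsupp.smul_apply, hc, smul_eq_mul]
  rw [h1, hEE]
  simp only [MonoidAlgebra.coeff_sum, Finsupp.finsetSum_apply, MonoidAlgebra.coeff_smul,
    Finsupp.smul_apply, MonoidAlgebra.of_apply, MonoidAlgebra.coeff_single,
    Finsupp.single_apply, smul_eq_mul]
  -- right-hand side
  have h2 : ∀ c ∈ Rs A, ∀ r ∈ Rs a,
      (((Perm.sign c : ℤˣ) : ℤ) : ℂ) * ((ph a A (c⁻¹ * g * r⁻¹) : ℤ) : ℂ) =
        ∑ r' ∈ Rs a, ∑ c' ∈ Rs A,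
          (((Perm.sign c' : ℤˣ) : ℤ) : ℂ) * (((Perm.sign c : ℤˣ) : ℤ) : ℂ) *
            (if r⁻¹ * c'⁻¹ * (r'⁻¹ * c⁻¹) = g⁻¹ then 1 else 0) := by
    intro c _ r _
    rw [ph_eq' a A]
    push_cast
    rw [Finset.mul_sum]
    refine Finset.sum_congr rfl fun r' _ => ?_
    rw [Finset.mul_sum]
    refine Finset.sum_congr rfl fun c' _ => ?_
    by_cases hx : c⁻¹ * g * r⁻¹ = r' * c'
    · have hg : r⁻¹ * c'⁻¹ * (r'⁻¹ * c⁻¹) = g⁻¹ := by
        have : g = c * (r' * c') * r := by rw [← hx]; group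
        rw [this]; group
      rw [if_pos hx, if_pos hg]; ring
    · rw [if_neg hx, if_neg]
      · ring
      · intro hg
        apply hx
        have : g = (r⁻¹ * c'⁻¹ * (r'⁻¹ * c⁻¹))⁻¹ := by rw [hg, inv_inv]
        rw [this]; group
  rw [Finset.sum_congr rfl fun c hc' => Finset.sum_congr rfl fun r hr => h2 c hc' r hr]
  -- rename the summation variables by inverses
  rw [← tr_sum_inv a]
  have h3 : ∀ F : Perm X → Perm X → Perm X → Perm X → ℂ,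
      ∑ r ∈ Rs a, ∑ c' ∈ Rs A, ∑ r' ∈ Rs a, ∑ c ∈ Rs A, F r c' r' c =
        ∑ c ∈ Rs A, ∑ r ∈ Rs a, ∑ r' ∈ Rs a, ∑ c' ∈ Rs A, F r c' r' c := by
    intro F
    calc ∑ r ∈ Rs a, ∑ c' ∈ Rs A, ∑ r' ∈ Rs a, ∑ c ∈ Rs A, F r c' r' c =
        ∑ r ∈ Rs a, ∑ r' ∈ Rs a, ∑ c' ∈ Rs A, ∑ c ∈ Rs A, F r c' r' c :=
          Finset.sum_congr rfl fun r _ => Finset.sum_comm
      _ = ∑ r ∈ Rs a, ∑ r' ∈ Rs a, ∑ c ∈ Rs A, ∑ c' ∈ Rs A, F r c' r' c :=
          Finset.sum_congr rfl fun r _ => Finset.sum_congr rfl fun r' _ => Finset.sum_comm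
      _ = ∑ r ∈ Rs a, ∑ c ∈ Rs A, ∑ r' ∈ Rs a, ∑ c' ∈ Rs A, F r c' r' c :=
          Finset.sum_congr rfl fun r _ => Finset.sum_comm
      _ = _ := Finset.sum_comm
  rw [← h3 (fun r c' r' c => (((Perm.sign c' : ℤˣ) : ℤ) : ℂ) * (((Perm.sign c : ℤˣ) : ℤ) : ℂ) *
            (if r⁻¹ * c'⁻¹ * (r'⁻¹ * c⁻¹) = g⁻¹ then 1 else 0))]
  refine Finset.sum_congr rfl fun r _ => ?_
  rw [← tr_sum_inv A]
  refine Finset.sum_congr rfl fun c' _ => ?_
  rw [← tr_sum_inv a]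
  refine Finset.sum_congr rfl fun r' _ => ?_
  rw [← tr_sum_inv A]
  refine Finset.sum_congr rfl fun c _ => ?_
  rw [tr_sgn_inv, tr_sgn_inv]

theorem tb_comp {X : Type} {a A : Word X} (h : Tb a A) (p : Perm X) : Tb (a ∘ p) (A ∘ p) := by
  refine ⟨fun x y hxy => p.injective (h.inj hxy), fun x i j hi hj => ?_⟩
  obtain ⟨y, -, h1, h2⟩ := h.lower (p x) i j hi hj
  exact ⟨p⁻¹ y, rfl, by simpa using h1, by simpa using h2⟩

theorem tb_symm {X : Type} {a A : Word X} (h : Tb a A) : Tb A a := by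
  refine ⟨fun x y hxy => h.inj ?_, fun x i j hi hj => ?_⟩
  · simp only [Prod.mk.injEq] at hxy ⊢
    exact ⟨hxy.1, hxy.2.2, hxy.2.1⟩
  · obtain ⟨y, h0, h1, h2⟩ := h.lower x j i hj hi
    exact ⟨y, h0, h2, h1⟩

/-- TRANSPOSITION. PROOF. `∑_g ph a A (u g) ph b B (v g) ph c C (w g) ≠ 0`.
`ph a A (u g) = sgn(u g) ph A a (u g)⁻¹` (`ph_inv`), `ph A a (u g)⁻¹ = γ⁻¹ ∑_{c ∈ Rs a, r ∈ Rs A} sgn c ph A a (c⁻¹ u g r⁻¹)`
(`ph_flip` for `(A, a)`), the same for `(b, B)`; `sgn(u g) sgn(v g) = sgn u sgn v`. So for some `c, r, c', r'`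
`∑_g ph A a (c⁻¹ u g r⁻¹) ph B b (c'⁻¹ v g r'⁻¹) ph c C (w g) ≠ 0`, and by `ph_conj` (with `h = r`)
`ph A a (y g r⁻¹) = ph (A ∘ r) (a ∘ r) (r⁻¹ y g)`. Take `p = r`, `q = r'`. -/
theorem JN_tr {a A b B c C : Word X} (ha : Tb a A) (hb : Tb b B) (h : JN a A b B c C) :
    ∃ p q : Perm X, JN (A ∘ p) (a ∘ p) (B ∘ q) (b ∘ q) c C := by
  obtain ⟨u, v, w, huvw⟩ := h
  obtain ⟨γ1, hγ1, h1⟩ := ph_flip (tb_symm ha)
  obtain ⟨γ2, hγ2, h2⟩ := ph_flip (tb_symm hb)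
  by_contra hcon
  push Not at hcon
  -- all the transposed triple products vanish
  have hz : ∀ p q u' v' w' : Perm X,
      JJ (A ∘ p) (a ∘ p) (B ∘ q) (b ∘ q) c C u' v' w' = 0 := by
    intro p q u' v' w'
    by_contra hne
    exact hcon p q ⟨u', v', w', hne⟩
  have hz' : ∀ x r y r' : Perm X,
      ∑ g : Perm X, ((ph A a (x * g * r⁻¹) : ℤ) : ℂ) * ((ph B b (y * g * r'⁻¹) : ℤ) : ℂ) *
        ((ph c C (w * g) : ℤ) : ℂ) = 0 := by
    intro x r y r'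
    have h3 := hz r r' (r⁻¹ * x) (r'⁻¹ * y) w
    unfold JJ at h3
    have h4 : ∀ g : Perm X, ph (A ∘ r) (a ∘ r) (r⁻¹ * x * g) = ph A a (x * g * r⁻¹) := by
      intro g
      rw [← ph_conj A a r]
      congr 1
      group
    have h5 : ∀ g : Perm X, ph (B ∘ r') (b ∘ r') (r'⁻¹ * y * g) = ph B b (y * g * r'⁻¹) := by
      intro g
      rw [← ph_conj B b r']
      congr 1
      group
    simp only [h4, h5] at h3
    have h6 := congrArg (fun z : ℤ => (z : ℂ)) h3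
    push_cast at h6
    exact h6
  apply huvw
  have hfin : γ1 * γ2 * ((JJ a A b B c C u v w : ℤ) : ℂ) = 0 := by
    unfold JJ
    push_cast
    rw [Finset.mul_sum]
    have h7 : ∀ g : Perm X, γ1 * γ2 * (((ph a A (u * g) : ℤ) : ℂ) * ((ph b B (v * g) : ℤ) : ℂ) *
        ((ph c C (w * g) : ℤ) : ℂ)) =
        ∑ s ∈ Rs a, ∑ r ∈ Rs A, ∑ s' ∈ Rs b, ∑ r' ∈ Rs B,
          ((((Perm.sign u : ℤˣ) : ℤ) : ℂ) * (((Perm.sign v : ℤˣ) : ℤ) : ℂ) *
            (((Perm.sign s : ℤˣ) : ℤ) : ℂ) * (((Perm.sign s' : ℤˣ) : ℤ) : ℂ)) *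
          (((ph A a (s⁻¹ * u * g * r⁻¹) : ℤ) : ℂ) * ((ph B b (s'⁻¹ * v * g * r'⁻¹) : ℤ) : ℂ) *
            ((ph c C (w * g) : ℤ) : ℂ)) := by
      intro g
      have e1 : ph a A (u * g) = ((Perm.sign (u * g) : ℤˣ) : ℤ) * ph A a (u * g)⁻¹ := by
        rw [ph_inv' a A, ← mul_assoc, tr_sgn_sq, one_mul]
      have e2 : ph b B (v * g) = ((Perm.sign (v * g) : ℤˣ) : ℤ) * ph B b (v * g)⁻¹ := by
        rw [ph_inv' b B, ← mul_assoc, tr_sgn_sq, one_mul]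
      have e3 : ((Perm.sign (u * g) : ℤˣ) : ℤ) * ((Perm.sign (v * g) : ℤˣ) : ℤ) =
          ((Perm.sign u : ℤˣ) : ℤ) * ((Perm.sign v : ℤˣ) : ℤ) := by
        rw [tr_sgn_mul, tr_sgn_mul]
        have := tr_sgn_sq g
        linear_combination (((Perm.sign u : ℤˣ) : ℤ) * ((Perm.sign v : ℤˣ) : ℤ)) * this
      have e3' := congrArg (fun z : ℤ => (z : ℂ)) e3
      push_cast at e3'
      have e4 := h1 (u * g)
      have e5 := h2 (v * g)
      calc γ1 * γ2 * (((ph a A (u * g) : ℤ) : ℂ) * ((ph b B (v * g) : ℤ) : ℂ) *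
            ((ph c C (w * g) : ℤ) : ℂ)) =
          ((((Perm.sign (u * g) : ℤˣ) : ℤ) : ℂ) * (((Perm.sign (v * g) : ℤˣ) : ℤ) : ℂ)) *
            (γ1 * ((ph A a (u * g)⁻¹ : ℤ) : ℂ)) * (γ2 * ((ph B b (v * g)⁻¹ : ℤ) : ℂ)) *
            ((ph c C (w * g) : ℤ) : ℂ) := by
              rw [e1, e2]; push_cast; ring
        _ = ((((Perm.sign u : ℤˣ) : ℤ) : ℂ) * (((Perm.sign v : ℤˣ) : ℤ) : ℂ)) *
            (∑ s ∈ Rs a, ∑ r ∈ Rs A, (((Perm.sign s : ℤˣ) : ℤ) : ℂ) *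
              ((ph A a (s⁻¹ * (u * g) * r⁻¹) : ℤ) : ℂ)) *
            (∑ s' ∈ Rs b, ∑ r' ∈ Rs B, (((Perm.sign s' : ℤˣ) : ℤ) : ℂ) *
              ((ph B b (s'⁻¹ * (v * g) * r'⁻¹) : ℤ) : ℂ)) *
            ((ph c C (w * g) : ℤ) : ℂ) := by rw [e3', e4, e5]
        _ = _ := by
            rw [tr_mul4]
            refine Finset.sum_congr rfl fun s _ => Finset.sum_congr rfl fun r _ =>
              Finset.sum_congr rfl fun s' _ => Finset.sum_congr rfl fun r' _ => ?_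
            rw [← mul_assoc s⁻¹, ← mul_assoc s'⁻¹]
            ring
    rw [Finset.sum_congr rfl fun g _ => h7 g]
    rw [Finset.sum_comm]
    refine Finset.sum_eq_zero fun s _ => ?_
    rw [Finset.sum_comm]
    refine Finset.sum_eq_zero fun r _ => ?_
    rw [Finset.sum_comm]
    refine Finset.sum_eq_zero fun s' _ => ?_
    rw [Finset.sum_comm]
    refine Finset.sum_eq_zero fun r' _ => ?_
    rw [← Finset.mul_sum, hz' (s⁻¹ * u) r (s'⁻¹ * v) r', mul_zero]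
  have h8 : ((JJ a A b B c C u v w : ℤ) : ℂ) = 0 := by
    rcases mul_eq_zero.1 hfin with h | h
    · exact absurd h (mul_ne_zero hγ1 hγ2)
    · exact h
  exact_mod_cast h8

end Crest.Agent.SG
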