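import Crest.Agent.SG.Irred
import Crest.Agent.SG.Tr
import Crest.Agent.Saxl.Final

/-!
CHUNK R195-SG-FIN (medium).  `Irred` is a black box (definitions `wrep`, `pa`, `VV`, `Vrep`; `ph_eq_pa`, `wrep_pa`);
`Saxl.Irr` (`asAlgebraHom_EP`), `Saxl.IrrA` (`EP_sandwich`, `EP_sq`), `Saxl.YS` (`exists_intertwiner`), `Saxl.Final`
(`fin_maschke`).
-/

set_option autoImplicit false

namespace Crest.Agent.SG

open Finset Equiv Crest.Agent.Saxl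

variable {X : Type} [Fintype X] [DecidableEq X]

/-- the word of `ph_eq_pa` does not depend on the permutation -/
lemma fin_word {a A : Word X} (h : Tb a A) :
    ∃ Y : X → Fin (Fintype.card X), ∀ g : Perm X, ((ph a A g : ℤ) : ℂ) = pa a A (Y ∘ g) := by
  obtain ⟨Y, hY, -⟩ := ph_eq_pa h 1
  refine ⟨Y, fun g => ?_⟩
  obtain ⟨Z, hZ, h2⟩ := ph_eq_pa h g
  have e : Z = Y := by
    funext x
    apply Fin.ext
    rw [hZ, hY]
  rw [h2, e]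

/-- the triple product as a sum over `Rs ρ × Rs κ` -/
lemma fin_JJ {a A b B ρ κ : Word X} (hρ : Tb ρ κ) (u v w : Perm X) :
    JJ a A b B ρ κ u v w = ∑ r ∈ Rs ρ, ∑ c ∈ Rs κ, ((Perm.sign c : ℤˣ) : ℤ) *
      (ph a A (u * w⁻¹ * (r * c)) * ph b B (v * w⁻¹ * (r * c))) := by
  unfold JJ
  simp only [ph_eq hρ, Finset.mul_sum]
  rw [Finset.sum_comm]
  refine Finset.sum_congr rfl fun r _ => ?_
  rw [Finset.sum_comm]
  refine Finset.sum_congr rfl fun c _ => ?_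
  rw [Finset.sum_eq_single (w⁻¹ * (r * c))]
  · rw [if_pos (by group), mul_comm, mul_assoc u, mul_assoc v]
  · intro g _ hg
    rw [if_neg, mul_zero]
    intro hcon
    apply hg
    rw [← hcon]
    group
  · intro h
    exact absurd (Finset.mem_univ _) h

/-- from a nonzero value of the Young symmetriser on a pure tensor to an intertwiner -/
lemma fin_gen {ρ κ : Word X} (hρ : Tb ρ κ) {V W : Type} [AddCommGroup V] [Module ℂ V]
    [AddCommGroup W] [Module ℂ W] (τ : Representation ℂ (Perm X) V)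
    (σ : Representation ℂ (Perm X) W) (hσ : Representation.IsIrreducible σ) (x y : V)
    (hy : yact (Representation.tprod τ τ) ρ κ (x ⊗ₜ[ℂ] y) ≠ 0) (w0 : W) (hw0 : yact σ ρ κ w0 ≠ 0) :
    Nontrivial (Representation.IntertwiningMap σ (Representation.tprod τ τ)) := by
  obtain ⟨γ, hγ, hE2⟩ := EP_sq hρ
  have h1 : (Representation.tprod τ τ).asAlgebraHom (EP ρ κ) (x ⊗ₜ[ℂ] y) ≠ 0 := by
    intro h
    exact hy ((asAlgebraHom_EP (Representation.tprod τ τ) ρ κ (x ⊗ₜ[ℂ] y)).symm.trans h)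
  have h2 : σ.asAlgebraHom (EP ρ κ) w0 ≠ 0 := by
    rw [asAlgebraHom_EP]
    exact hw0
  obtain ⟨f, hf, hf0⟩ := exists_intertwiner (EP ρ κ) (EP_sandwich hρ) γ hγ hE2
    (Representation.tprod τ τ) σ (x ⊗ₜ[ℂ] y) w0 h1 h2
  exact fin_maschke _ σ hσ f hf (x ⊗ₜ[ℂ] y) hf0

/-- If the triple product of `(a ∘ p, A ∘ p)`, `(a ∘ q, A ∘ q)`, `(ρ, κ)` is nonzero, and the Young symmetriser of `(ρ, κ)` is
nonzero on the irreducible `W`, then `W` occurs in the tensor square of the Specht module of `(a, A)`.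
PROOF. `x = pa (a ∘ p) (A ∘ p) = p⁻¹ pa a A`, `y = pa (a ∘ q) (A ∘ q) = q⁻¹ pa a A` (`wrep_pa`) in `VV a A`.
`T : V ⊗ V → Fun(words × words)`, `f ⊗ k ↦ f(Y) k(Z)`, equivariant. `T (yact ρ κ (x ⊗ y)) (a∘p∘u∘w⁻¹, a∘q∘v∘w⁻¹)`
`= ∑_{r ∈ Rs ρ, c ∈ Rs κ} sgn c ph (a∘p) (A∘p) (u w⁻¹ r c) ph (a∘q) (A∘q) (v w⁻¹ r c)`
`= ∑_g ph (a∘p) (A∘p) (u g) ph (a∘q) (A∘q) (v g) ph ρ κ (w g) = JJ .. u v w` (`g = w⁻¹ r c`, and
`ph ρ κ (w g) = ∑_{r, c : w g = r c} sgn c`, in `Tr.lean` `ph_eq`). So `yact ρ κ (x ⊗ y) ≠ 0` and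
`exists_intertwiner` (`E = EP ρ κ`) gives an equivariant `V ⊗ V → W` not killing `x ⊗ y`; then `fin_maschke`. -/
theorem occurs {a A ρ κ : Word X} (ha : Tb a A) (hρ : Tb ρ κ) (p q u v w : Perm X)
    (hJ : JJ (a ∘ p) (A ∘ p) (a ∘ q) (A ∘ q) ρ κ u v w ≠ 0)
    (W : Type) [AddCommGroup W] [Module ℂ W]
    (σ : Representation ℂ (Perm X) W) (hσ : Representation.IsIrreducible σ)
    (w0 : W) (hw0 : yact σ ρ κ w0 ≠ 0) :
    Nontrivial (Representation.IntertwiningMap σ (Representation.tprod (Vrep a A) (Vrep a A))) := by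
  have hmem : ∀ p : Perm X, pa (a ∘ p) (A ∘ p) ∈ VV a A := by
    intro p
    refine Submodule.subset_span ⟨p⁻¹, ?_⟩
    simp only [wrep_pa, inv_inv]
  let x : VV a A := ⟨_, hmem p⟩
  let y : VV a A := ⟨_, hmem q⟩
  obtain ⟨Yp, hYp⟩ := fin_word (tb_comp ha p)
  obtain ⟨Yq, hYq⟩ := fin_word (tb_comp ha q)
  let ep : VV a A →ₗ[ℂ] ℂ :=
    (LinearMap.proj (R := ℂ) (φ := fun _ => ℂ) (Yp ∘ (u * w⁻¹ : Perm X))) ∘ₗ (VV a A).subtype
  let eq : VV a A →ₗ[ℂ] ℂ :=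
    (LinearMap.proj (R := ℂ) (φ := fun _ => ℂ) (Yq ∘ (v * w⁻¹ : Perm X))) ∘ₗ (VV a A).subtype
  let Φ : TensorProduct ℂ (VV a A) (VV a A) →ₗ[ℂ] ℂ :=
    TensorProduct.lift ((LinearMap.mul ℂ ℂ).compl₁₂ ep eq)
  have hΦ : ∀ s t : VV a A, Φ (s ⊗ₜ[ℂ] t) =
      s.1 (Yp ∘ (u * w⁻¹ : Perm X)) * t.1 (Yq ∘ (v * w⁻¹ : Perm X)) := fun s t => rfl
  have hg : ∀ g : Perm X, Φ (Representation.tprod (Vrep a A) (Vrep a A) g (x ⊗ₜ[ℂ] y)) =
      ((ph (a ∘ p) (A ∘ p) (u * w⁻¹ * g) : ℤ) : ℂ) * ((ph (a ∘ q) (A ∘ q) (v * w⁻¹ * g) : ℤ) : ℂ) := by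
    intro g
    rw [Representation.tprod_apply, TensorProduct.map_tmul, hΦ, hYp, hYq]
    rfl
  have hy : yact (Representation.tprod (Vrep a A) (Vrep a A)) ρ κ (x ⊗ₜ[ℂ] y) ≠ 0 := by
    intro hcon
    apply hJ
    have h1 := congrArg Φ hcon
    rw [map_zero] at h1
    unfold yact at h1
    simp only [map_sum, map_smul, hg] at h1
    rw [fin_JJ hρ]
    have h2 : (((∑ r ∈ Rs ρ, ∑ c ∈ Rs κ, ((Perm.sign c : ℤˣ) : ℤ) *
      (ph (a ∘ p) (A ∘ p) (u * w⁻¹ * (r * c)) * ph (a ∘ q) (A ∘ q) (v * w⁻¹ * (r * c))) : ℤ)) : ℂ) = 0 := by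
      rw [← h1]
      push_cast
      rfl
    exact_mod_cast h2
  exact fin_gen hρ (Vrep a A) σ hσ x y hy w0 hw0

end Crest.Agent.SG
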