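import Crest.Agent.SG.Lists
import Crest.Agent.SG.Fin

/-!
# From `Full l` to the statement S0298 for `n = l.sum`
-/

set_option autoImplicit false

namespace Crest.Agent.SG

open Finset Equiv Crest.Agent.Saxl

/-- the list of row lengths of a tableau -/
theorem exists_list {X : Type} [Fintype X] [DecidableEq X] {ρ κ : Word X} (h : Tb ρ κ) :
    ∃ ν : List ℕ, IsPart ν ∧ ν.sum = Fintype.card X ∧ RowSz ρ ν := by
  classical
  set r : ℕ → ℕ := fun i => (univ.filter (fun x => ρ x = i)).card with hr
  set m : ℕ := (univ.filter (fun x => κ x = 0)).card with hm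
  have hcol := sh_col_image h 0
  rw [← hm] at hcol
  have hpos : ∀ i, i < m → 0 < r i := by
    intro i hi
    rw [← mem_range, ← hcol, mem_image] at hi
    obtain ⟨x, -, hx2⟩ := hi
    exact card_pos.2 ⟨x, by rw [mem_filter]; exact ⟨mem_univ _, hx2⟩⟩
  have hzero : ∀ i, m ≤ i → r i = 0 := by
    intro i hi
    by_contra hne
    obtain ⟨x, hx⟩ := card_pos.1 (Nat.pos_of_ne_zero hne)
    rw [mem_filter] at hx
    obtain ⟨y, -, h1, h2⟩ := h.lower x (ρ x) 0 le_rfl (Nat.zero_le _)
    have : ρ y ∈ (univ.filter (fun x => κ x = 0)).image ρ :=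
      mem_image_of_mem ρ (by rw [mem_filter]; exact ⟨mem_univ _, h2⟩)
    rw [hcol, mem_range, h1, hx.2] at this
    omega
  have hanti : ∀ i i', i ≤ i' → r i' ≤ r i := by
    intro i i' hii
    by_contra hc
    push Not at hc
    have h1 : r i' - 1 ∈ (univ.filter (fun x => ρ x = i')).image κ := by
      rw [sh_row_image h, mem_range]
      show r i' - 1 < r i'
      omega
    rw [mem_image] at h1
    obtain ⟨x, hx, hx2⟩ := h1
    rw [mem_filter] at hx
    obtain ⟨y, -, h3, h4⟩ := h.lower x i (κ x) (by rw [hx.2]; exact hii) le_rfl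
    have h5 : κ y ∈ (univ.filter (fun x => ρ x = i)).image κ :=
      mem_image_of_mem κ (by rw [mem_filter]; exact ⟨mem_univ _, h3⟩)
    rw [sh_row_image h, mem_range, h4, hx2] at h5
    have : r i' - 1 < r i := h5
    omega
  have hgetD : ∀ i, ((List.range m).map r).getD i 0 = r i := by
    intro i
    by_cases hi : i < m
    · rw [List.getD_eq_getElem _ _ (by simpa using hi)]
      simp
    · rw [List.getD_eq_default _ _ (by simpa using Nat.le_of_not_lt hi), hzero i (by omega)]
  refine ⟨(List.range m).map r, ⟨?_, ?_⟩, ?_, fun i => (hgetD i).symm⟩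
  · rw [List.pairwise_map]
    exact (List.pairwise_lt_range (n := m)).imp fun {i j} hij => hanti i j hij.le
  · intro a ha
    rw [List.mem_map] at ha
    obtain ⟨i, hi, rfl⟩ := ha
    exact hpos i (List.mem_range.1 hi)
  · have h1 : ((List.range m).map r).sum = ∑ i ∈ range m, r i := rfl
    rw [h1, ← card_univ, card_eq_sum_card_fiberwise (f := ρ) (t := range m)]
    intro x _
    rw [mem_coe, mem_range]
    by_contra hc
    have h2 := hzero (ρ x) (by omega)
    have h3 : 0 < r (ρ x) := card_pos.2 ⟨x, by rw [mem_filter]; exact ⟨mem_univ _, rfl⟩⟩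
    omega

theorem card_of_rowSz {X : Type} [Fintype X] [DecidableEq X] {a : Word X} {l : List ℕ}
    (h : RowSz a l) : Fintype.card X = l.sum := by
  rw [← sh_sum_getD, ← card_univ, card_eq_sum_card_fiberwise (f := a) (t := range l.length)]
  · exact sum_congr rfl fun i _ => h i
  · intro x _
    rw [mem_coe, mem_range]
    by_contra hc
    have h2 := h (a x)
    rw [List.getD_eq_default _ _ (by omega)] at h2
    have h3 : 0 < (univ.filter (fun y => a y = a x)).card :=
      card_pos.2 ⟨x, by rw [mem_filter]; exact ⟨mem_univ _, rfl⟩⟩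
    omega

theorem tb_equiv {X Y : Type} {a A : Word X} (h : Tb a A) (e : Y ≃ X) : Tb (a ∘ e) (A ∘ e) := by
  refine ⟨fun x y hxy => e.injective (h.inj hxy), fun x i j hi hj => ?_⟩
  obtain ⟨y, -, h1, h2⟩ := h.lower (e x) i j hi hj
  exact ⟨e.symm y, rfl, by simpa using h1, by simpa using h2⟩

theorem rowSz_equiv {X Y : Type} [Fintype X] [DecidableEq X] [Fintype Y] [DecidableEq Y]
    {a : Word X} {l : List ℕ} (h : RowSz a l) (e : Y ≃ X) : RowSz (a ∘ e) l := by
  intro i
  rw [← h i]
  refine card_bij (fun x _ => e x) ?_ ?_ ?_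
  · intro x hx
    rw [mem_filter] at hx ⊢
    exact ⟨mem_univ _, hx.2⟩
  · intro x _ y _ hxy
    exact e.injective hxy
  · intro y hy
    rw [mem_filter] at hy
    exact ⟨e.symm y, by rw [mem_filter]; simpa using hy.2, by simp⟩

theorem Rs_equiv {X Y : Type} [Fintype X] [DecidableEq X] [Fintype Y] [DecidableEq Y]
    (A : Word X) (e : Y ≃ X) (σ : Perm X) : (e.permCongr.symm σ) ∈ Rs (A ∘ e) ↔ σ ∈ Rs A := by
  simp only [Rs, mem_filter, mem_univ, true_and]
  constructor
  · intro h
    funext x
    have := congrFun h (e.symm x)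
    simpa [Equiv.permCongr_symm_apply] using this
  · intro h
    funext x
    have := congrFun h (e x)
    simpa [Equiv.permCongr_symm_apply] using this

theorem ph_equiv {X Y : Type} [Fintype X] [DecidableEq X] [Fintype Y] [DecidableEq Y]
    (a A : Word X) (e : Y ≃ X) (g : Perm X) : ph (a ∘ e) (A ∘ e) (e.permCongr.symm g) = ph a A g := by
  unfold ph
  symm
  refine sum_bij' (fun σ _ => e.permCongr.symm σ) (fun σ _ => e.permCongr σ) ?_ ?_ ?_ ?_ ?_
  · intro σ hσ
    exact (Rs_equiv A e σ).2 hσ
  · intro σ hσ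
    rw [← Rs_equiv A e, Equiv.symm_apply_apply]
    exact hσ
  · intro σ _
    exact Equiv.apply_symm_apply _ _
  · intro σ _
    exact Equiv.symm_apply_apply _ _
  · intro σ _
    have hs : Perm.sign (e.permCongr.symm σ) = Perm.sign σ := by
      have := Equiv.Perm.sign_permCongr e (e.permCongr.symm σ)
      rw [Equiv.apply_symm_apply] at this
      exact this.symm
    rw [hs]
    have : (a ∘ g = a ∘ σ) ↔ ((a ∘ e) ∘ (e.permCongr.symm g) = (a ∘ e) ∘ (e.permCongr.symm σ)) := by
      constructor
      · intro h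
        funext x
        have := congrFun h (e x)
        simpa [Equiv.permCongr_symm_apply] using this
      · intro h
        funext x
        have := congrFun h (e.symm x)
        simpa [Equiv.permCongr_symm_apply] using this
    exact if_congr this rfl rfl

/-- `Full l` gives the statement S0298 for `n = l.sum`. -/
theorem full_S0298 {n : ℕ} {l : List ℕ} (hl : Full l) (hn : l.sum = n) :
    ∃ (V : Type) (_ : AddCommGroup V) (_ : Module ℂ V) (_ : FiniteDimensional ℂ V)
      (ρ : Representation ℂ (Equiv.Perm (Fin n)) V), Representation.IsIrreducible ρ ∧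
      ∀ (W : Type) [AddCommGroup W] [Module ℂ W] [FiniteDimensional ℂ W]
        (σ : Representation ℂ (Equiv.Perm (Fin n)) W), Representation.IsIrreducible σ →
        Nontrivial (Representation.IntertwiningMap σ (Representation.tprod ρ ρ)) := by
  classical
  have hcn : Fintype.card (Fin n) = n := Fintype.card_fin n
  obtain ⟨a0, A0, h0, r0⟩ := exists_tb_of_list (X := Fin n) l hl.1.1 (by rw [hn, hcn])
  refine ⟨VV a0 A0, inferInstance, inferInstance, inferInstance, Vrep a0 A0, Vrep_irreducible h0, ?_⟩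
  intro W _ _ _ σ hσ
  have hWn : Nontrivial W := by
    by_contra hcon
    rw [not_nontrivial_iff_subsingleton] at hcon
    have hbt : (⊥ : Subrepresentation σ) = ⊤ := by
      refine Subrepresentation.toSubmodule_injective ?_
      exact Subsingleton.elim _ _
    have := hσ.toNontrivial
    exact bot_ne_top hbt
  obtain ⟨ρ, κ, hρ, w0, hw0⟩ := exists_yact_ne_zero σ
  obtain ⟨ν, hν, hνs, rν⟩ := exists_list hρ
  obtain ⟨X, i1, i2, a, A, b, B, c, C, ha, hb, hc, ra, rb, rc, hE⟩ := hl.2 ν hν (by rw [hνs, hcn, hn])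
  obtain ⟨u, v, w, hJ⟩ := (JN_iff _ _ _ _ _ _).2 hE
  have hXn : Fintype.card X = Fintype.card (Fin n) := by rw [card_of_rowSz ra, hn, hcn]
  let e : Fin n ≃ X := (Fintype.equivOfCardEq hXn).symm
  -- transport to `Fin n`
  have hcnt : ∀ {a a' : Word (Fin n)} {l : List ℕ}, RowSz a l → RowSz a' l →
      ∀ t, (univ.filter (fun x => a' x < t)).card = (univ.filter (fun x => a x < t)).card := by
    intro a a' l h h' t
    have key : ∀ f : Word (Fin n), (univ.filter (fun x => f x < t)).card =
        ∑ i ∈ range t, (univ.filter (fun x => f x = i)).card := by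
      intro f
      rw [card_eq_sum_card_fiberwise (f := f) (t := range t)
        (fun x hx => by rw [mem_coe, mem_filter] at hx; exact mem_coe.2 (mem_range.2 hx.2))]
      refine sum_congr rfl fun i hi => ?_
      congr 1
      ext x
      simp only [mem_filter, mem_univ, true_and]
      constructor
      · exact fun h => h.2
      · exact fun h => ⟨by rw [h]; exact mem_range.1 hi, h⟩
    rw [key, key]
    exact sum_congr rfl fun i _ => by rw [h i, h' i]
  obtain ⟨g1, hg1, hg1'⟩ := tab_conj (tb_equiv ha e) h0 (hcnt (rowSz_equiv ra e) r0)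
  obtain ⟨g2, hg2, hg2'⟩ := tab_conj (tb_equiv hb e) h0 (hcnt (rowSz_equiv rb e) r0)
  obtain ⟨g3, hg3, hg3'⟩ := tab_conj (tb_equiv hc e) hρ (hcnt (rowSz_equiv rc e) rν)
  have hJ2 : JJ (a ∘ e) (A ∘ e) (b ∘ e) (B ∘ e) (c ∘ e) (C ∘ e) (e.permCongr.symm u)
      (e.permCongr.symm v) (e.permCongr.symm w) ≠ 0 := by
    convert hJ using 1
    unfold JJ
    symm
    refine Fintype.sum_equiv (e.permCongr.symm) _ _ fun g => ?_
    have hm : ∀ x y : Perm X, e.permCongr.symm x * e.permCongr.symm y = e.permCongr.symm (x * y) := by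
      intro x y
      ext i
      simp
    rw [hm, hm, hm, ph_equiv, ph_equiv, ph_equiv]
  set u' := e.permCongr.symm u
  set v' := e.permCongr.symm v
  set w' := e.permCongr.symm w
  rw [← hg1, ← hg1', ← hg2, ← hg2', ← hg3, ← hg3'] at hJ2
  -- move the third tableau to the base position
  have key : ∀ (a A : Word (Fin n)) (h x : Perm (Fin n)),
      ph (a ∘ h) (A ∘ h) (x * g3) = ph (a ∘ (h * g3⁻¹ : Perm (Fin n))) (A ∘ (h * g3⁻¹ : Perm (Fin n))) (g3 * x) := by
    intro a A h x
    have := ph_conj (a ∘ h) (A ∘ h) g3⁻¹ (x * g3)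
    rw [← this]
    congr 1
    rw [inv_inv]
    group
  refine occurs h0 hρ (g1 * g3⁻¹) (g2 * g3⁻¹) (g3 * u') (g3 * v') (g3 * w') ?_ W σ hσ w0 hw0
  convert hJ2 using 1
  unfold JJ
  refine Fintype.sum_equiv (Equiv.mulRight g3) _ _ fun g => ?_
  simp only [Equiv.coe_mulRight, ← mul_assoc]
  rw [key, key, key]
  have e3 : (g3 * g3⁻¹ : Perm (Fin n)) = 1 := mul_inv_cancel g3
  rw [e3]
  simp only [mul_assoc]
  rfl

end Crest.Agent.SG
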