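import Crest.Agent.SG.Fast
import Crest.Agent.SG.Main

/-!
# Soundness of the fast certificate checker
-/

set_option autoImplicit false

namespace Crest.Agent.SG

open Finset Equiv Crest.Agent.Saxl

/-! ### packed lists -/

/-- packed list in base `b` -/
def codeb (b : ℕ) : List ℕ → ℕ
  | [] => 0
  | a :: l => a + b * codeb b l

theorem code_eq : ∀ l : List ℕ, code l = codeb 4096 l
  | [] => rfl
  | a :: l => by
    show a + 4096 * code l = a + 4096 * codeb 4096 l
    rw [code_eq l]

theorem codeb_digit {b : ℕ} (hb : 0 < b) : ∀ (l : List ℕ), (∀ a ∈ l, a < b) → ∀ i,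
    codeb b l / b ^ i % b = l.getD i 0
  | [], _, i => by simp [codeb]
  | a :: l, h, 0 => by
    have ha := h a (by simp)
    simp only [codeb, pow_zero, Nat.div_one, List.getD_cons_zero]
    rw [Nat.add_mul_mod_self_left, Nat.mod_eq_of_lt ha]
  | a :: l, h, i + 1 => by
    have ha := h a (by simp)
    rw [List.getD_cons_succ, ← codeb_digit hb l (fun x hx => h x (by simp [hx])) i, pow_succ',
      ← Nat.div_div_eq_div_mul]
    congr 2
    rw [codeb, Nat.add_mul_div_left _ _ hb, Nat.div_eq_of_lt ha, zero_add]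

theorem codeb_lt {b : ℕ} (hb : 0 < b) : ∀ (l : List ℕ), (∀ a ∈ l, a < b) → codeb b l < b ^ l.length
  | [], _ => by simp [codeb]
  | a :: l, h => by
    have ha := h a (by simp)
    have h1 := codeb_lt hb l (fun x hx => h x (by simp [hx]))
    rw [codeb, List.length_cons, pow_succ']
    calc a + b * codeb b l < b + b * codeb b l := by omega
      _ = b * (codeb b l + 1) := by ring
      _ ≤ b * b ^ l.length := Nat.mul_le_mul_left _ h1

/-- `1 + 4096 + .. + 4096^(r-1)` -/
def rp : ℕ → ℕ
  | 0 => 0
  | r + 1 => 1 + 4096 * rp r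

theorem rp_eq : ∀ r, 4096 ^ r = 4095 * rp r + 1
  | 0 => by simp [rp]
  | r + 1 => by
    rw [pow_succ, rp_eq r, rp]
    ring

theorem code_ones : ∀ (n : ℕ) (l : List ℕ), code (ones n l) = rp n + code l
  | 0, l => by simp [ones, rp]
  | n + 1, [] => by
    have h := code_ones n []
    show 1 + 4096 * code (ones n []) = 1 + 4096 * rp n + 0
    rw [h]
    rfl
  | n + 1, a :: l => by
    have h := code_ones n l
    show (a + 1) + 4096 * code (ones n l) = 1 + 4096 * rp n + (a + 4096 * code l)
    rw [h]
    ring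

theorem code_lconj : ∀ l : List ℕ, code (lconj l) = (l.map rp).sum
  | [] => rfl
  | a :: l => by
    rw [lconj, code_ones, code_lconj l, List.map_cons, List.sum_cons]

theorem code_ladd : ∀ l l' : List ℕ, code (ladd l l') = code l + code l'
  | [], l => by
    show code l = 0 + code l
    rw [zero_add]
  | a :: l, [] => rfl
  | a :: l, b :: l' => by
    show (a + b) + 4096 * code (ladd l l') = (a + 4096 * code l) + (b + 4096 * code l')
    rw [code_ladd l l']
    ring

theorem code_mod {l : List ℕ} (h : l.sum < 4095) : code l % 4095 = l.sum := by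
  have key : ∀ l : List ℕ, code l % 4095 = l.sum % 4095 := by
    intro l
    induction l with
    | nil => rfl
    | cons a l ih =>
      show (a + 4096 * code l) % 4095 = _
      rw [List.sum_cons]
      omega
  rw [key, Nat.mod_eq_of_lt h]

/-! ### the conjugate -/

theorem sg_zero (b b2 b3 b4 A : ℕ) : sg b b2 b3 b4 0 A = 0 := rfl

theorem sg_succ_zero (b b2 b3 b4 f : ℕ) : sg b b2 b3 b4 (f + 1) 0 = 0 := rfl

theorem sg_succ (b b2 b3 b4 f A : ℕ) (hA : A ≠ 0) : sg b b2 b3 b4 (f + 1) A =
    (4096 ^ (A % b) + 4096 ^ (A / b % b)) +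
      ((4096 ^ (A / b2 % b) + 4096 ^ (A / b3 % b)) + sg b b2 b3 b4 f (A / b4)) := by
  obtain ⟨C, rfl⟩ := Nat.exists_eq_succ_of_ne_zero hA
  rfl

theorem sg_eq {b : ℕ} (hb : 0 < b) : ∀ (f A : ℕ), A < b ^ (4 * f) → ∃ g ≤ f,
    sg b (b ^ 2) (b ^ 3) (b ^ 4) f A =
      4095 * ∑ i ∈ range (4 * f), rp (A / b ^ i % b) + 4 * g
  | 0, A, _ => ⟨0, le_rfl, by simp [sg_zero]⟩
  | f + 1, A, hA => by
    by_cases h0 : A = 0
    · subst h0
      refine ⟨0, by omega, ?_⟩
      rw [sg_succ_zero]
      simp [rp]
    · have h1 : A / b ^ 4 < b ^ (4 * f) := by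
        rw [Nat.div_lt_iff_lt_mul (by positivity), ← pow_add]
        have : 4 * f + 4 = 4 * (f + 1) := by ring
        rw [this]
        exact hA
      obtain ⟨g, hg, he⟩ := sg_eq hb f (A / b ^ 4) h1
      refine ⟨g + 1, by omega, ?_⟩
      rw [sg_succ _ _ _ _ _ _ h0, he]
      have h2 : 4 * (f + 1) = 4 + 4 * f := by ring
      rw [h2, Finset.sum_range_add]
      have h3 : ∀ i, A / b ^ 4 / b ^ i = A / b ^ (4 + i) := by
        intro i
        rw [Nat.div_div_eq_div_mul, ← pow_add]
      simp only [h3]
      simp only [Finset.sum_range_succ, Finset.sum_range_zero, pow_zero, Nat.div_one, pow_one, rp_eq]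
      ring

theorem sum_rp {l : List ℕ} {m : ℕ} (h : l.length ≤ m) :
    ∑ i ∈ range m, rp (l.getD i 0) = (l.map rp).sum := by
  have h1 : ∀ i, rp (l.getD i 0) = (l.map rp).getD i 0 := by
    intro i
    by_cases hi : i < l.length
    · rw [List.getD_eq_getElem _ _ hi, List.getD_eq_getElem _ _ (by simpa using hi)]
      simp
    · rw [List.getD_eq_default _ _ (by omega), List.getD_eq_default _ _ (by simpa using Nat.le_of_not_lt hi)]
      rfl
  rw [← sh_sum_getD (l.map rp), List.length_map]
  simp only [h1]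
  symm
  refine Finset.sum_subset (fun i hi => ?_) (fun i _ hi => ?_)
  · rw [mem_range] at hi ⊢
    omega
  · rw [mem_range] at hi
    exact List.getD_eq_default _ _ (by rw [List.length_map]; omega)

theorem cj_code {l : List ℕ} (h : ∀ a ∈ l, a < 4096) (hl : l.length ≤ 256) :
    cj (code l) = code (lconj l) := by
  have h1 : code l < 4096 ^ (4 * 64) := by
    rw [code_eq]
    refine lt_of_lt_of_le (codeb_lt (by norm_num) l h) ?_
    exact Nat.pow_le_pow_right (by norm_num) hl
  obtain ⟨g, hg, he⟩ := sg_eq (b := 4096) (by norm_num) 64 (code l) h1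
  have h2 : cj (code l) = sg 4096 (4096 ^ 2) (4096 ^ 3) (4096 ^ 4) 64 (code l) / 4095 := rfl
  rw [h2, he, code_lconj]
  have h3 : ∑ i ∈ range (4 * 64), rp (code l / 4096 ^ i % 4096) = (l.map rp).sum := by
    rw [← sum_rp (m := 4 * 64) hl]
    refine Finset.sum_congr rfl fun i _ => ?_
    rw [code_eq, codeb_digit (by norm_num) l h]
  rw [h3]
  omega

theorem cx_code {l : List ℕ} (h : ∀ a ∈ l, a < 64) (hl : l.length ≤ 256) :
    cx (codeb 64 l) = code (lconj l) := by
  have h1 : codeb 64 l < 64 ^ (4 * 64) :=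
    lt_of_lt_of_le (codeb_lt (by norm_num) l h) (Nat.pow_le_pow_right (by norm_num) hl)
  obtain ⟨g, hg, he⟩ := sg_eq (b := 64) (by norm_num) 64 (codeb 64 l) h1
  have h2 : cx (codeb 64 l) = sg 64 (64 ^ 2) (64 ^ 3) (64 ^ 4) 64 (codeb 64 l) / 4095 := rfl
  rw [h2, he, code_lconj]
  have h3 : ∑ i ∈ range (4 * 64), rp (codeb 64 l / 64 ^ i % 64) = (l.map rp).sum := by
    rw [← sum_rp (m := 4 * 64) hl]
    refine Finset.sum_congr rfl fun i _ => ?_
    rw [codeb_digit (by norm_num) l h]
  rw [h3]
  omega

/-- every number `< 64 ^ L` is a packed list in base 64 -/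
theorem exists_codeb : ∀ (L x : ℕ), x < 64 ^ L → ∃ l : List ℕ, l.length = L ∧ (∀ a ∈ l, a < 64) ∧
    codeb 64 l = x
  | 0, x, hx => ⟨[], rfl, by simp, by simp at hx; simp [codeb, hx]⟩
  | L + 1, x, hx => by
    have h1 : x / 64 < 64 ^ L := by
      rw [Nat.div_lt_iff_lt_mul (by norm_num), ← pow_succ]
      exact hx
    obtain ⟨l, hl, ha, hc⟩ := exists_codeb L (x / 64) h1
    refine ⟨x % 64 :: l, by simp [hl], ?_, ?_⟩
    · intro a hmem
      rcases List.mem_cons.1 hmem with rfl | hmem
      · exact Nat.mod_lt _ (by norm_num)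
      · exact ha a hmem
    · rw [codeb, hc]
      omega

/-! ### good packed triples -/

theorem le_sum_of_mem' : ∀ {l : List ℕ} {a : ℕ}, a ∈ l → a ≤ l.sum
  | b :: l, a, h => by
    rw [List.sum_cons]
    rcases List.mem_cons.1 h with rfl | h
    · omega
    · have := le_sum_of_mem' h
      omega

theorem length_ones : ∀ (n : ℕ) (l : List ℕ), (ones n l).length = max n l.length
  | 0, l => by simp [ones]
  | n + 1, [] => by
    have := length_ones n []
    simp only [ones, List.length_cons, this, List.length_nil]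
    omega
  | n + 1, a :: l => by
    have := length_ones n l
    simp only [ones, List.length_cons, this]
    omega

theorem length_lconj : ∀ (l : List ℕ) (m : ℕ), (∀ a ∈ l, a ≤ m) → (lconj l).length ≤ m
  | [], m, _ => by simp [lconj]
  | a :: l, m, h => by
    rw [lconj, length_ones]
    exact max_le (h a (by simp)) (length_lconj l m fun x hx => h x (by simp [hx]))

theorem length_ladd : ∀ (l l' : List ℕ), (ladd l l').length = max l.length l'.length
  | [], l => by simp [ladd]
  | a :: l, [] => by simp [ladd]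
  | a :: l, b :: l' => by
    simp only [ladd, List.length_cons, length_ladd l l']
    omega

theorem sum_ladd : ∀ (l l' : List ℕ), (ladd l l').sum = l.sum + l'.sum
  | [], l => by simp [ladd]
  | a :: l, [] => by simp [ladd]
  | a :: l, b :: l' => by
    simp only [ladd, List.sum_cons, sum_ladd l l']
    omega

theorem good_sum {α β γ : List ℕ} (h : Good α β γ) : α.sum = β.sum ∧ α.sum = γ.sum := by
  obtain ⟨X, i1, i2, a, A, b, B, c, C, ha, hb, hc, ra, rb, rc, h⟩ := h
  rw [← card_of_rowSz ra, ← card_of_rowSz rb, ← card_of_rowSz rc]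
  exact ⟨rfl, rfl⟩

/-- packed good triples (of size at most 255) -/
def GoodN (a b c : ℕ) : Prop :=
  ∃ α β γ : List ℕ, Good α β γ ∧ a = code α ∧ b = code β ∧ c = code γ ∧ α.sum ≤ 255 ∧
    α.length ≤ 256 ∧ β.length ≤ 256 ∧ γ.length ≤ 256

theorem GoodN.swap12 {a b c : ℕ} (h : GoodN a b c) : GoodN b a c := by
  obtain ⟨α, β, γ, h, ha, hb, hc, hs, h1, h2, h3⟩ := h
  exact ⟨β, α, γ, good_swap12 h, hb, ha, hc, by rw [← (good_sum h).1]; exact hs, h2, h1, h3⟩

theorem GoodN.swap23 {a b c : ℕ} (h : GoodN a b c) : GoodN a c b := by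
  obtain ⟨α, β, γ, h, ha, hb, hc, hs, h1, h2, h3⟩ := h
  exact ⟨α, γ, β, good_swap23 h, ha, hc, hb, hs, h1, h3, h2⟩

theorem cj_of {α : List ℕ} (hs : α.sum ≤ 255) (hl : α.length ≤ 256) :
    cj (code α) = code (lconj α) :=
  cj_code (fun a ha => by have := le_sum_of_mem' ha; omega) hl

theorem length_lconj_of {α : List ℕ} (hs : α.sum ≤ 255) : (lconj α).length ≤ 256 :=
  (length_lconj α 255 fun a ha => by have := le_sum_of_mem' ha; omega).trans (by norm_num)

theorem GoodN.t12 {a b c : ℕ} (h : GoodN a b c) : GoodN (cj a) (cj b) c := by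
  obtain ⟨α, β, γ, h, rfl, rfl, rfl, hs, h1, h2, h3⟩ := h
  have hs2 : β.sum ≤ 255 := by rw [← (good_sum h).1]; exact hs
  exact ⟨lconj α, lconj β, γ, good_tr12 h, cj_of hs h1, cj_of hs2 h2, rfl, by rw [lconj_sum]; exact hs,
    length_lconj_of hs, length_lconj_of hs2, h3⟩

theorem GoodN.t13 {a b c : ℕ} (h : GoodN a b c) : GoodN (cj a) b (cj c) := h.swap23.t12.swap23

theorem GoodN.t23 {a b c : ℕ} (h : GoodN a b c) : GoodN a (cj b) (cj c) :=
  h.swap12.t13.swap12

theorem GoodN.add {a b c a' b' c' : ℕ} (h : GoodN a b c) (h' : GoodN a' b' c')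
    (hm : a % 4095 + a' % 4095 ≤ 255) : GoodN (a + a') (b + b') (c + c') := by
  obtain ⟨α, β, γ, h, rfl, rfl, rfl, hs, h1, h2, h3⟩ := h
  obtain ⟨α', β', γ', h', rfl, rfl, rfl, hs', h1', h2', h3'⟩ := h'
  rw [code_mod (by omega), code_mod (by omega)] at hm
  refine ⟨ladd α α', ladd β β', ladd γ γ', good_add h h', (code_ladd _ _).symm, (code_ladd _ _).symm,
    (code_ladd _ _).symm, by rw [sum_ladd]; exact hm, ?_, ?_, ?_⟩
  · rw [length_ladd]; exact max_le h1 h1'
  · rw [length_ladd]; exact max_le h2 h2'
  · rw [length_ladd]; exact max_le h3 h3'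

/-- the leaf triples -/
theorem goodN_leaf {x L : ℕ} (hL : L < 64) (hx : x < 64 ^ L) (hm : cx x % 4095 ≤ 255) :
    GoodN (cx x) (cx x) (cx x % 4095) := by
  obtain ⟨l, hl, ha, rfl⟩ := exists_codeb L x hx
  have h1 : cx (codeb 64 l) = code (lconj l) := cx_code ha (by omega)
  have hsum : l.sum ≤ 63 * 63 := by
    have key : ∀ l : List ℕ, (∀ a ∈ l, a < 64) → l.sum ≤ 63 * l.length := by
      intro l
      induction l with
      | nil => simp
      | cons a l ih =>
        intro h
        have h2 := h a (by simp)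
        have h3 := ih fun x hx => h x (by simp [hx])
        rw [List.sum_cons, List.length_cons]
        omega
    have := key l ha
    have h4 : l.length ≤ 63 := by omega
    calc l.sum ≤ 63 * l.length := this
      _ ≤ 63 * 63 := Nat.mul_le_mul_left _ h4
  have h2 : cx (codeb 64 l) % 4095 = (lconj l).sum := by
    rw [h1, code_mod (by rw [lconj_sum]; omega)]
  have h3 : (lconj l).length ≤ 256 :=
    (length_lconj l 63 fun a hx => by have := ha a hx; omega).trans (by norm_num)
  rw [h2] at hm ⊢
  rw [h1]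
  refine ⟨lconj l, lconj l, [(lconj l).sum], good_triv _ (lconj_isPart l).1, rfl, rfl, ?_, hm, h3, h3,
    by simp⟩
  show (lconj l).sum = (lconj l).sum + 4096 * 0
  omega

theorem cj_single {m : ℕ} (hm : m ≤ 255) : cj m = 4096 ^ m / 4095 := by
  have h1 : code [m] = m := by
    show m + 4096 * 0 = m
    omega
  have h2 : cj (code [m]) = code (lconj [m]) := cj_of (by simpa using hm) (by simp)
  rw [h1] at h2
  rw [h2]
  have h3 : code (lconj [m]) = rp m := by
    show code (ones m []) = rp m
    rw [code_ones]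
    rfl
  rw [h3, rp_eq]
  omega

/-! ### evaluation -/

theorem ev_zero (gens : List (ℕ × ℕ × ℕ)) (N : ℕ) (k : ℕ → ℕ → ℕ → ℕ → Bool) :
    ev gens 0 N k = false := rfl

theorem brec {P : Prop} {a b c : Bool} (h : Bool.rec (motive := fun _ => Bool) a b c = true)
    (h1 : c = false → a = true → P) (h2 : c = true → b = true → P) : P := by
  cases c
  · exact h1 rfl h
  · exact h2 rfl h

theorem ev_spec (gens : List (ℕ × ℕ × ℕ)) (hg : ∀ t ∈ gens, GoodN t.1 t.2.1 t.2.2) :
    ∀ (f N : ℕ) (k : ℕ → ℕ → ℕ → ℕ → Bool), ev gens f N k = true →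
      ∃ a b c N', GoodN a b c ∧ k a b c N' = true := by
  have hg0 : GoodN 0 0 0 := by
    refine ⟨[], [], [], ?_, rfl, rfl, rfl, by simp, by simp, by simp, by simp⟩
    have h := good_triv [] List.Pairwise.nil
    refine good_congr h (fun i => rfl) (fun i => rfl) (fun i => ?_)
    cases i <;> simp
  intro f
  induction f with
  | zero => intro N k h; exact absurd h (by rw [ev_zero]; simp)
  | succ f ih =>
    intro N k h
    rcases N with _ | M
    · exact absurd h (by
        show ¬ (false = true)
        simp)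
    · change Bool.rec (motive := fun _ => Bool) _ _ _ = true at h
      refine brec h (fun h1 h2 => ?_) (fun h1 h2 => ?_)
      · refine brec h2 (fun h3 h4 => ?_) (fun h3 h4 => ?_)
        · -- generator
          refine ⟨_, _, _, _, ?_, h4⟩
          rw [List.getD_eq_getElem?_getD]
          rcases h5 : gens[Nat.mod (Nat.div (Nat.succ M) 64) 64]? with _ | t
          · simpa using hg0
          · simpa using hg t (List.mem_of_getElem? h5)
        · -- sum
          obtain ⟨a, b, c, N1, hgood, h5⟩ := ih _ _ h4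
          obtain ⟨a', b', c', N2, hgood', h6⟩ := ih _ _ h5
          refine brec h6 (fun _ h => absurd h (by simp)) (fun h7 h8 => ?_)
          have h9 : a % 4095 + a' % 4095 ≤ 255 := Nat.le_of_ble_eq_true h7
          have hs := hgood.add hgood' h9
          refine brec h8 (fun _ h => brec h (fun _ h => brec h (fun _ h => ?_) (fun _ h => ?_))
            (fun _ h => ?_)) (fun _ h => ?_)
          · exact ⟨_, _, _, _, hs.t23, h⟩
          · exact ⟨_, _, _, _, hs.t13, h⟩
          · exact ⟨_, _, _, _, hs.t12, h⟩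
          · exact ⟨_, _, _, _, hs, h⟩
      · -- leaf
        dsimp only at h2
        refine brec h2 (fun _ h => absurd h (by simp)) (fun h3 h4 => ?_)
        have hm := Nat.le_of_ble_eq_true h3
        set L : ℕ := Nat.mod (Nat.div (Nat.succ M) 64) 64 with hL
        set x : ℕ := Nat.mod (Nat.div (Nat.succ M) 4096) (Nat.pow 64 L) with hx
        have hL64 : L < 64 := Nat.mod_lt _ (by norm_num)
        have hxL : x < 64 ^ L := Nat.mod_lt _ (Nat.pow_pos (by norm_num : 0 < 64))
        have hgood : GoodN (cx x) (cx x) (cx x % 4095) := goodN_leaf hL64 hxL hm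
        have hcs : cj (cx x % 4095) = 4096 ^ (cx x % 4095) / 4095 := cj_single hm
        refine brec h4 (fun _ h => brec h (fun _ h => brec h (fun _ h => ?_) (fun _ h => ?_))
            (fun _ h => ?_))
          (fun _ h => brec h (fun _ h => brec h (fun _ h => ?_) (fun _ h => ?_)) (fun _ h => ?_))
        · have h5 := hgood.t13
          rw [hcs] at h5
          exact ⟨_, _, _, _, h5, h⟩
        · have h5 := hgood.swap23.t12
          rw [hcs] at h5
          exact ⟨_, _, _, _, h5, h⟩
        · have h5 := hgood.swap23.swap12.t12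
          rw [hcs] at h5
          exact ⟨_, _, _, _, h5, h⟩
        · exact ⟨_, _, _, _, hgood, h⟩
        · exact ⟨_, _, _, _, hgood.swap23, h⟩
        · exact ⟨_, _, _, _, hgood.swap23.swap12, h⟩

/-- packed numbers determine the list up to trailing zeros -/
theorem getD_of_code {l l' : List ℕ} (h : code l = code l') (h1 : ∀ a ∈ l, a < 4096)
    (h2 : ∀ a ∈ l', a < 4096) (i : ℕ) : l.getD i 0 = l'.getD i 0 := by
  rw [← codeb_digit (b := 4096) (by norm_num) l h1, ← codeb_digit (b := 4096) (by norm_num) l' h2,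
    ← code_eq, ← code_eq, h]

theorem chkF1_spec (gens : List (ℕ × ℕ × ℕ)) (hg : ∀ t ∈ gens, GoodN t.1 t.2.1 t.2.2)
    {l ν : List ℕ} (hl : ∀ a ∈ l, a < 4096) (hν : ∀ a ∈ ν, a < 4096) {d : ℕ}
    (h : chkF1 gens (code l) (code ν) d = true) : Good l l ν := by
  obtain ⟨x, y, z, N, hgood, h1⟩ := ev_spec gens hg _ _ _ h
  refine brec h1 (fun _ h => absurd h (by simp)) (fun hx h2 => ?_)
  refine brec h2 (fun _ h => absurd h (by simp)) (fun hy hz => ?_)
  obtain ⟨α, β, γ, h, rfl, rfl, rfl, hs, h1, h2, h3⟩ := hgood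
  have ex := Nat.eq_of_beq_eq_true hx
  have ey := Nat.eq_of_beq_eq_true hy
  have ez := Nat.eq_of_beq_eq_true hz
  have hgs := good_sum h
  refine good_congr h (getD_of_code ex ?_ hl) (getD_of_code ey ?_ hl) (getD_of_code ez ?_ hν)
  · intro a ha
    have := le_sum_of_mem' ha
    omega
  · intro a ha
    have := le_sum_of_mem' ha
    omega
  · intro a ha
    have := le_sum_of_mem' ha
    omega

theorem chkF_spec (gens : List (ℕ × ℕ × ℕ)) (hg : ∀ t ∈ gens, GoodN t.1 t.2.1 t.2.2)
    {l : List ℕ} (hl : ∀ a ∈ l, a < 4096) : ∀ (r : List (List ℕ)) (ds : List ℕ),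
    chkF gens (code l) r ds = true → ∀ ν ∈ r, (∀ a ∈ ν, a < 4096) →
      code ν < cj (code ν) ∨ Good l l ν
  | [], _, _, ν, hν, _ => by simp at hν
  | μ :: r, ds, h, ν, hν, hν2 => by
    change Bool.rec (motive := fun _ => Bool) _ _ _ = true at h
    refine brec h (fun h1 h2 => ?_) (fun h1 h2 => ?_)
    · rcases ds with _ | ⟨d, ds⟩
      · exact absurd h2 (by simp)
      · change Bool.rec (motive := fun _ => Bool) _ _ _ = true at h2
        refine brec h2 (fun _ h => absurd h (by simp)) (fun h3 h4 => ?_)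
        rcases List.mem_cons.1 hν with rfl | hν
        · exact Or.inr (chkF1_spec gens hg hl hν2 h3)
        · exact chkF_spec gens hg hl r ds h4 ν hν hν2
    · rcases List.mem_cons.1 hν with rfl | hν
      · exact Or.inl (Nat.le_of_ble_eq_true h1)
      · exact chkF_spec gens hg hl r ds h2 ν hν hν2

/-! ### Fullness -/

theorem good_tr23 {α β γ : List ℕ} (h : Good α β γ) : Good α (lconj β) (lconj γ) := by
  have h1 : Good β γ α := good_swap23 (good_swap12 h)
  have h2 : Good (lconj β) (lconj γ) α := good_tr12 h1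
  exact good_swap12 (good_swap23 h2)

theorem isPart_bound {ν : List ℕ} {n : ℕ} (hs : ν.sum = n) (hn : n ≤ 85) :
    (∀ a ∈ ν, a < 4096) := fun a ha => by
  have := le_sum_of_mem' ha
  omega

theorem isPart_length {ν : List ℕ} (h : ∀ a ∈ ν, 0 < a) : ν.length ≤ ν.sum := by
  induction ν with
  | nil => simp
  | cons a l ih =>
    have h1 := h a (by simp)
    have h2 := ih fun x hx => h x (by simp [hx])
    rw [List.length_cons, List.sum_cons]
    omega

/-- the symmetric conclusion: it is enough to treat one of `ν` and its conjugate -/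
theorem good_of_either {l ν : List ℕ} (hself : lconj l = l) {n : ℕ} (hn : n ≤ 85)
    (hν : IsPart ν) (hs : ν.sum = n)
    (h1 : code ν < cj (code ν) ∨ Good l l ν)
    (h2 : code (lconj ν) < cj (code (lconj ν)) ∨ Good l l (lconj ν)) : Good l l ν := by
  rcases h1 with h1 | h1
  · rcases h2 with h2 | h2
    · exfalso
      have hb := isPart_bound hs hn
      have hlen : ν.length ≤ 256 := by
        have := isPart_length hν.2
        omega
      have hs' : (lconj ν).sum = n := by rw [lconj_sum]; exact hs
      have hb' := isPart_bound hs' hn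
      have hlen' : (lconj ν).length ≤ 256 := by
        have := isPart_length (lconj_isPart ν).2
        omega
      rw [cj_code hb hlen] at h1
      rw [cj_code hb' hlen', lconj_lconj hν] at h2
      omega
    · have := good_tr23 h2
      rwa [hself, lconj_lconj hν] at this
  · exact h1

theorem full_of_chk (gens : List (ℕ × ℕ × ℕ)) (hg : ∀ t ∈ gens, GoodN t.1 t.2.1 t.2.2)
    {l : List ℕ} {n : ℕ} (hl : IsPart l) (hself : lconj l = l) (hs : l.sum = n) (hn : n ≤ 85)
    (ds : List ℕ) {f : ℕ} (hf : n + n < f) (h : chkF gens (code l) (prt f n n) ds = true) :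
    Full l := by
  refine ⟨hl, fun ν hν hνs => ?_⟩
  rw [hs] at hνs
  have hmem : ∀ ν : List ℕ, IsPart ν → ν.sum = n → ν ∈ prt f n n := fun ν hν hνs =>
    prt_spec f n n ν hν.1 (fun a ha => ⟨hν.2 a ha, by rw [← hνs]; exact le_sum_of_mem' ha⟩) hνs hf
  have hb := isPart_bound hs hn
  exact good_of_either hself hn hν hνs
    (chkF_spec gens hg hb _ _ h ν (hmem ν hν hνs) (isPart_bound hνs hn))
    (chkF_spec gens hg hb _ _ h (lconj ν) (hmem _ (lconj_isPart ν) (by rw [lconj_sum]; exact hνs))
      (isPart_bound (by rw [lconj_sum]; exact hνs) hn))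

theorem countP_one (l : List ℕ) : l.countP (fun r => decide (0 < r)) =
    l.countP (fun r => decide (1 < r)) + l.countP (fun r => decide (r = 1)) := by
  induction l with
  | nil => simp
  | cons a l ih =>
    rw [List.countP_cons, List.countP_cons, List.countP_cons, ih]
    rcases a with _ | _ | a
    · simp
    · simp; omega
    · simp; omega

/-- the arms lemma -/
theorem full_arm (gens : List (ℕ × ℕ × ℕ)) (hg : ∀ t ∈ gens, GoodN t.1 t.2.1 t.2.2)
    {l l' : List ℕ} {n : ℕ} (hl : Full l) (hl' : IsPart l')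
    (harm : lconj (ladd (lconj (ladd l [1])) [1]) = l') (hself : lconj l' = l')
    (hs : l'.sum = n) (hn : n ≤ 85) (hn5 : 5 ≤ n)
    (ds : List ℕ) (h : chkF gens (code l') (tightL n n) ds = true) :
    Full l' := by
  refine ⟨hl', fun ν hν hνs => ?_⟩
  rw [hs] at hνs
  have hsl : l.sum + 2 = n := by
    rw [← hs, ← harm, lconj_sum, sum_ladd, lconj_sum, sum_ladd]
    simp
  -- partitions with a long first row
  have hlong : ∀ ν : List ℕ, IsPart ν → ν.sum = n → ν.getD 1 0 + 2 ≤ ν.getD 0 0 → Good l' l' ν := by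
    intro ν hν hνs h1
    rcases ν with _ | ⟨a, ν⟩
    · simp at h1
    · simp only [List.getD_cons_zero, List.getD_cons_succ] at h1
      rw [List.sum_cons] at hνs
      have ha2 : a ≠ 2 := by
        intro ha
        rcases ν with _ | ⟨b, ν⟩
        · simp at hνs; omega
        · have := hν.2 b (by simp)
          simp at h1
          omega
      have hm : IsPart ((a - 2) :: ν) := by
        have hpw := List.pairwise_cons.1 hν.1
        refine ⟨List.pairwise_cons.2 ⟨fun b hb => ?_, hpw.2⟩, fun b hb => ?_⟩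
        · rcases ν with _ | ⟨c, ν⟩
          · simp at hb
          · simp only [List.getD_cons_zero] at h1
            have h2 : b ≤ c := by
              rcases List.mem_cons.1 hb with rfl | hb
              · exact le_rfl
              · exact (List.pairwise_cons.1 hpw.2).1 b hb
            show b ≤ a - 2
            omega
        · rcases List.mem_cons.1 hb with rfl | hb
          · omega
          · exact hν.2 b (by simp [hb])
      have hg1 := hl.2 ((a - 2) :: ν) hm (by rw [List.sum_cons]; omega)
      have h111 : Good [1] [1] [1] := good_triv [1] (by simp)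
      have hg2 := good_tr12 (good_add (good_tr12 (good_add hg1 h111)) h111)
      rw [harm] at hg2
      have e : ladd (ladd ((a - 2) :: ν) [1]) [1] = a :: ν := by
        rcases ν with _ | ⟨c, ν⟩
        · simp only [ladd, List.cons.injEq, and_true]
          omega
        · simp only [ladd, List.cons.injEq, and_true]
          omega
      rwa [e] at hg2
  by_cases h1 : ν.getD 1 0 + 2 ≤ ν.getD 0 0
  · exact hlong ν hν hνs h1
  by_cases h2 : (lconj ν).getD 1 0 + 2 ≤ (lconj ν).getD 0 0
  · have := good_tr23 (hlong (lconj ν) (lconj_isPart ν) (by rw [lconj_sum]; exact hνs) h2)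
    rwa [hself, lconj_lconj hν] at this
  -- tight partitions
  have hmem : ∀ ν : List ℕ, IsPart ν → ν.sum = n → ¬ (ν.getD 1 0 + 2 ≤ ν.getD 0 0) →
      ¬ ((lconj ν).getD 1 0 + 2 ≤ (lconj ν).getD 0 0) → ν ∈ tightL n n := by
    intro ν hν hνs h1 h2
    have hc : ν.countP (fun a => decide (a = 1)) ≤ 1 := by
      rw [getD_lconj, getD_lconj, countP_one] at h2
      omega
    have hp2 : 2 ≤ ν.getD 0 0 := by
      by_contra hcon
      -- all parts are one
      have h3 : ∀ a ∈ ν, a = 1 := by
        intro a ha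
        obtain ⟨i, hi, rfl⟩ := List.getElem_of_mem ha
        have h4 := sh_getD_anti hν.1 (Nat.zero_le i)
        rw [List.getD_eq_getElem _ _ hi] at h4
        have := hν.2 _ (List.getElem_mem hi)
        omega
      have h5 : ν.countP (fun a => decide (a = 1)) = ν.length := by
        rw [List.countP_eq_length]
        intro a ha
        simpa using h3 a ha
      have h6 : ν.sum = ν.length := by
        have key : ∀ ν : List ℕ, (∀ a ∈ ν, a = 1) → ν.sum = ν.length := by
          intro ν
          induction ν with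
          | nil => simp
          | cons a l ih =>
            intro h
            rw [List.sum_cons, List.length_cons, h a (by simp), ih fun x hx => h x (by simp [hx])]
            omega
        exact key ν h3
      omega
    have hpn : ν.getD 0 0 ≤ n := by
      rcases ν with _ | ⟨a, ν⟩
      · simp at hp2
      · simp only [List.getD_cons_zero]
        rw [← hνs, List.sum_cons]
        omega
    exact tightL_mem n (ν.getD 0 0) ν (by omega) hpn
      (tightP_spec (by omega) hp2 hν hνs rfl (by omega) hc)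
  have hb := isPart_bound hs hn
  have hνs' : (lconj ν).sum = n := by rw [lconj_sum]; exact hνs
  refine good_of_either hself hn hν hνs
    (chkF_spec gens hg hb _ _ h ν (hmem ν hν hνs h1 h2) (isPart_bound hνs hn))
    (chkF_spec gens hg hb _ _ h (lconj ν)
      (hmem _ (lconj_isPart ν) hνs' h2 ?_) (isPart_bound hνs' hn))
  rw [lconj_lconj hν]
  exact h1

end Crest.Agent.SG
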