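import Crest.Agent.SG.Defs
import Crest.Agent.Saxl.YoungA

/-!
CHUNK R195-SG-IRRED (medium).  `Defs`, `Saxl.YoungA` (`tab_factor`), `Saxl.Pt` (`act_pt`).
The Specht module of a tableau `(a, A)`, as functions on row words, is irreducible.
-/

set_option autoImplicit false

namespace Crest.Agent.SG

open Finset Equiv Crest.Agent.Saxl

variable {X : Type} [Fintype X] [DecidableEq X]

/-- The representation of `Perm X` on functions of row words with values in `range (card X)` (any word of a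
tableau has values `< card X`); finite dimensional. The action is `(g f)(Y) = f (Y ∘ g)`. -/
def wrep (X : Type) [Fintype X] : Representation ℂ (Perm X) ((X → Fin (Fintype.card X)) → ℂ) where
  toFun g :=
    { toFun := fun f Y => f (Y ∘ g)
      map_add' := fun _ _ => rfl
      map_smul' := fun _ _ => rfl }
  map_one' := by ext; rfl
  map_mul' g h := by ext; rfl

/-- the polytabloid of `(a, A)` in this space: `pa a A Y = ∑_{σ ∈ Rs A} sgn σ [Y = a ∘ σ]` -/
def pa (a A : Word X) (Y : X → Fin (Fintype.card X)) : ℂ :=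
  ∑ σ ∈ Rs A, if (fun x => ((Y x : Fin _) : ℕ)) = a ∘ σ then (((Perm.sign σ : ℤˣ) : ℤ) : ℂ) else 0

theorem ir_wrep_apply (g : Perm X) (f : (X → Fin (Fintype.card X)) → ℂ)
    (Y : X → Fin (Fintype.card X)) : wrep X g f Y = f (Y ∘ g) := rfl

theorem ir_mem_Rs (A : Word X) (g : Perm X) : g ∈ Rs A ↔ A ∘ g = A := by
  simp [Rs]

theorem ir_lt_card {a A : Word X} (h : Tb a A) (x : X) : a x < Fintype.card X := by
  have h1 : ∀ i : Fin (a x + 1), ∃ y, a y = i := by
    intro i
    obtain ⟨y, _, hy, _⟩ := h.lower x i 0 (by omega) (Nat.zero_le _)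
    exact ⟨y, hy⟩
  choose y hy using h1
  have hinj : Function.Injective y := by
    intro i j hij
    have := hy i
    rw [hij, hy j] at this
    exact Fin.ext this.symm
  have := Fintype.card_le_of_injective y hinj
  rw [Fintype.card_fin] at this
  omega

/-- the row word as a word with values in `Fin` -/
def irY {a A : Word X} (h : Tb a A) : X → Fin (Fintype.card X) := fun x => ⟨a x, ir_lt_card h x⟩

theorem ph_eq_pa {a A : Word X} (h : Tb a A) (g : Perm X) :
    ∃ Y : X → Fin (Fintype.card X), (∀ x, ((Y x : Fin _) : ℕ) = a x) ∧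
      ((ph a A g : ℤ) : ℂ) = pa a A (Y ∘ g) := by
  refine ⟨irY h, fun x => rfl, ?_⟩
  rw [ph, pa]
  push_cast
  refine Finset.sum_congr rfl fun σ _ => ?_
  have : (fun x => (((irY h ∘ g) x : Fin _) : ℕ)) = a ∘ g := rfl
  rw [this]

/-- `g` acts by moving the tableau -/
theorem wrep_pa (a A : Word X) (g : Perm X) :
    wrep X g (pa a A) = pa (a ∘ (g⁻¹ : Perm X)) (A ∘ (g⁻¹ : Perm X)) := by
  funext Y
  rw [ir_wrep_apply, pa, pa]
  refine Finset.sum_bij' (fun σ _ => g * σ * g⁻¹) (fun τ _ => g⁻¹ * τ * g) ?_ ?_ ?_ ?_ ?_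
  · intro σ hσ
    rw [ir_mem_Rs] at hσ ⊢
    funext x
    have := congrFun hσ (g⁻¹ x)
    simpa [Perm.mul_apply] using this
  · intro τ hτ
    rw [ir_mem_Rs] at hτ ⊢
    funext x
    have := congrFun hτ (g x)
    simpa [Perm.mul_apply] using this
  · intro σ _; group
  · intro τ _; group
  · intro σ _
    have hs : Perm.sign (g * σ * g⁻¹) = Perm.sign σ := by
      rcases Int.units_eq_one_or (Perm.sign g) with h | h <;> simp [Perm.sign_mul, h]
    rw [hs]
    refine if_congr ?_ rfl rfl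
    constructor
    · intro h
      funext x
      have := congrFun h (g⁻¹ x)
      simpa [Perm.mul_apply] using this
    · intro h
      funext x
      have := congrFun h (g x)
      simpa [Perm.mul_apply] using this

/-- The Specht module: the span of the orbit of the polytabloid. -/
def VV (a A : Word X) : Submodule ℂ ((X → Fin (Fintype.card X)) → ℂ) :=
  Submodule.span ℂ (Set.range fun g : Perm X => wrep X g (pa a A))

theorem VV_inv (a A : Word X) (g : Perm X) (f : (X → Fin (Fintype.card X)) → ℂ) (hf : f ∈ VV a A) :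
    wrep X g f ∈ VV a A := by
  have : VV a A ≤ (VV a A).comap (wrep X g) := by
    rw [VV, Submodule.span_le]
    rintro _ ⟨g', rfl⟩
    have : wrep X g (wrep X g' (pa a A)) = wrep X (g * g') (pa a A) := by
      rw [map_mul]; rfl
    show wrep X g (wrep X g' (pa a A)) ∈ Submodule.span ℂ _
    rw [this]
    exact Submodule.subset_span ⟨g * g', rfl⟩
  exact this hf

/-- the representation on the Specht module -/
def Vrep (a A : Word X) : Representation ℂ (Perm X) (VV a A) where
  toFun g := (wrep X g).restrict (VV_inv a A g)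
  map_one' := by ext; rfl
  map_mul' g h := by ext; rfl

/-- value of the polytabloid -/
theorem ir_pa_val {a A : Word X} (h : Tb a A) {Y : X → Fin (Fintype.card X)} {σ : Perm X}
    (hσ : σ ∈ Rs A) (hY : (fun x => ((Y x : Fin _) : ℕ)) = a ∘ σ) :
    pa a A Y = (((Perm.sign σ : ℤˣ) : ℤ) : ℂ) := by
  rw [pa, Finset.sum_eq_single σ]
  · rw [if_pos hY]
  · intro τ hτ hne
    rw [if_neg]
    intro h2
    apply hne
    rw [ir_mem_Rs] at hσ hτ
    ext x
    apply h.inj
    have e1 := congrFun (hY.symm.trans h2) x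
    have e2 := congrFun (hσ.trans hτ.symm) x
    simp only [Function.comp_apply] at e1 e2
    simp only [e1, e2]
  · intro h2; exact absurd hσ h2

/-- support of the elements of the Specht module -/
theorem ir_supp {a A : Word X} {f : (X → Fin (Fintype.card X)) → ℂ} (hf : f ∈ VV a A)
    {Y : X → Fin (Fintype.card X)} (hY : f Y ≠ 0) :
    ∃ g : Perm X, (fun x => ((Y x : Fin _) : ℕ)) = a ∘ g := by
  by_contra hcon
  apply hY
  refine Submodule.span_induction (p := fun f _ => f Y = 0) ?_ ?_ ?_ ?_ hf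
  · rintro _ ⟨g, rfl⟩
    show pa a A (Y ∘ g) = 0
    rw [pa]
    refine Finset.sum_eq_zero fun σ _ => ?_
    rw [if_neg]
    intro h2
    apply hcon
    refine ⟨σ * g⁻¹, ?_⟩
    funext x
    have := congrFun h2 (g⁻¹ x)
    simpa [Perm.mul_apply] using this
  · rfl
  · intro x y _ _ hx hy; rw [Pi.add_apply, hx, hy, add_zero]
  · intro c x _ hx; rw [Pi.smul_apply, hx, smul_zero]

/-- the antisymmetriser -/
def ka (A : Word X) (f : (X → Fin (Fintype.card X)) → ℂ) : (X → Fin (Fintype.card X)) → ℂ :=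
  ∑ σ ∈ Rs A, (((Perm.sign σ : ℤˣ) : ℤ) : ℂ) • wrep X σ f

theorem ir_ka_apply (A : Word X) (f : (X → Fin (Fintype.card X)) → ℂ) (Y : X → Fin (Fintype.card X)) :
    ka A f Y = ∑ σ ∈ Rs A, (((Perm.sign σ : ℤˣ) : ℤ) : ℂ) * f (Y ∘ σ) := by
  rw [ka, Finset.sum_apply]
  rfl

theorem ir_Rs_mul {A : Word X} {σ τ : Perm X} (hσ : σ ∈ Rs A) (hτ : τ ∈ Rs A) : σ * τ ∈ Rs A := by
  rw [ir_mem_Rs] at *
  funext x
  have h1 := congrFun hσ (τ x)
  have h2 := congrFun hτ x
  simp only [Function.comp_apply] at h1 h2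
  simp [Perm.mul_apply, h1, h2]

theorem ir_Rs_inv {A : Word X} {σ : Perm X} (hσ : σ ∈ Rs A) : σ⁻¹ ∈ Rs A := by
  rw [ir_mem_Rs] at *
  funext x
  have h1 := congrFun hσ (σ⁻¹ x)
  simp only [Function.comp_apply] at h1 ⊢
  rw [← h1]; simp

theorem ir_sign_sq (σ : Perm X) :
    (((Perm.sign σ : ℤˣ) : ℤ) : ℂ) * (((Perm.sign σ : ℤˣ) : ℤ) : ℂ) = 1 := by
  rcases Int.units_eq_one_or (Perm.sign σ) with h | h <;> simp [h]

/-- antisymmetry -/
theorem ir_ka_comp {A : Word X} (f : (X → Fin (Fintype.card X)) → ℂ) {τ : Perm X} (hτ : τ ∈ Rs A)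
    (Y : X → Fin (Fintype.card X)) :
    ka A f (Y ∘ τ) = (((Perm.sign τ : ℤˣ) : ℤ) : ℂ) * ka A f Y := by
  rw [ir_ka_apply, ir_ka_apply, Finset.mul_sum]
  refine Finset.sum_bij' (fun σ _ => τ * σ) (fun σ _ => τ⁻¹ * σ) ?_ ?_ ?_ ?_ ?_
  · intro σ hσ; exact ir_Rs_mul hτ hσ
  · intro σ hσ; exact ir_Rs_mul (ir_Rs_inv hτ) hσ
  · intro σ _; group
  · intro σ _; group
  · intro σ _
    rw [Perm.sign_mul]
    have e' : f ((Y ∘ τ) ∘ σ) = f (Y ∘ (τ * σ : Perm X)) := rfl
    rw [e']
    generalize f (Y ∘ (τ * σ : Perm X)) = z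
    push_cast
    have := ir_sign_sq τ
    linear_combination (-(((Perm.sign σ : ℤˣ) : ℤ) : ℂ) * z) * this

/-- KAPPA LEMMA. `f` in the Specht module (only used: `f` is supported on the words of the same type as `a`).
`∑_{σ ∈ Rs A} sgn σ (σ f) = c • pa a A`. PROOF: the left side `k` satisfies `k (Y ∘ σ) = sgn σ k Y` for `σ ∈ Rs A`; it is
supported on words `Y = a ∘ g`; if two letters in the same block of `A` have the same value of `Y`, then `k Y = 0` (the
transposition fixes `Y`); otherwise `x ↦ (A x, a (g x))` is injective and by `tab_factor` (for the tableau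
`(A, a)`) there is `r` with `A ∘ r = A`, `a ∘ (g r) = a`, so `Y = a ∘ r⁻¹`, and `k Y = sgn r k a`. -/
theorem kappa_lemma {a A : Word X} (h : Tb a A) (f : (X → Fin (Fintype.card X)) → ℂ) (hf : f ∈ VV a A) :
    ∃ c : ℂ, (∑ σ ∈ Rs A, (((Perm.sign σ : ℤˣ) : ℤ) : ℂ) • wrep X σ f) = c • pa a A := by
  show ∃ c : ℂ, ka A f = c • pa a A
  refine ⟨ka A f (irY h), ?_⟩
  funext Y
  rw [Pi.smul_apply, smul_eq_mul]
  by_cases hex : ∃ σ ∈ Rs A, (fun x => ((Y x : Fin _) : ℕ)) = a ∘ σ
  · obtain ⟨σ, hσ, hY⟩ := hex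
    rw [ir_pa_val h hσ hY]
    have e : Y = irY h ∘ σ := by
      funext x
      apply Fin.ext
      exact congrFun hY x
    rw [e, ir_ka_comp f hσ]
    ring
  · have h0 : pa a A Y = 0 := by
      rw [pa]
      refine Finset.sum_eq_zero fun σ hσ => ?_
      rw [if_neg]
      intro h2
      exact hex ⟨σ, hσ, h2⟩
    rw [h0, mul_zero]
    by_contra hk
    apply hex
    -- support
    have hsup : ∃ g : Perm X, (fun x => ((Y x : Fin _) : ℕ)) = a ∘ g := by
      have h1 : ∃ σ ∈ Rs A, f (Y ∘ σ) ≠ 0 := by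
        by_contra hcon
        push Not at hcon
        apply hk
        rw [ir_ka_apply]
        refine Finset.sum_eq_zero fun σ hσ => ?_
        rw [hcon σ hσ, mul_zero]
      obtain ⟨σ, _, hσ2⟩ := h1
      obtain ⟨g, hg⟩ := ir_supp hf hσ2
      refine ⟨g * σ⁻¹, ?_⟩
      funext x
      have := congrFun hg (σ⁻¹ x)
      simpa [Perm.mul_apply] using this
    obtain ⟨g, hg⟩ := hsup
    have hinj : Function.Injective (fun x => ((fun _ => 0 : Word X) x, A x, a (g x))) := by
      intro x y hxy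
      simp only [Prod.mk.injEq, true_and] at hxy
      by_contra hne
      apply hk
      have hsw : Equiv.swap x y ∈ Rs A := by
        rw [ir_mem_Rs]
        funext z
        simp only [Function.comp_apply]
        rcases eq_or_ne z x with rfl | hzx
        · rw [Equiv.swap_apply_left]; exact hxy.1.symm
        · rcases eq_or_ne z y with rfl | hzy
          · rw [Equiv.swap_apply_right]; exact hxy.1
          · rw [Equiv.swap_apply_of_ne_of_ne hzx hzy]
      have hYs : Y ∘ (Equiv.swap x y) = Y := by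
        funext z
        apply Fin.ext
        have hgz : ∀ z, ((Y z : Fin _) : ℕ) = a (g z) := fun z => congrFun hg z
        simp only [Function.comp_apply]
        rw [hgz, hgz]
        rcases eq_or_ne z x with rfl | hzx
        · rw [Equiv.swap_apply_left]; exact hxy.2.symm
        · rcases eq_or_ne z y with rfl | hzy
          · rw [Equiv.swap_apply_right]; exact hxy.2
          · rw [Equiv.swap_apply_of_ne_of_ne hzx hzy]
      have h3 := ir_ka_comp f hsw Y
      rw [hYs, Perm.sign_swap hne] at h3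
      push_cast at h3
      linear_combination (1/2 : ℂ) * h3
    have htab : IsTab (fun _ => 0) A a := by
      refine ⟨?_, ?_⟩
      · intro x y hxy
        apply h.inj
        simp only [Prod.mk.injEq, true_and] at hxy ⊢
        exact ⟨hxy.2, hxy.1⟩
      · intro x i j hi hj
        obtain ⟨y, h1, h2, h3⟩ := h.lower x j i hj hi
        exact ⟨y, h1, h3, h2⟩
    obtain ⟨r, _, hr1, hr2⟩ := tab_factor htab g rfl hinj
    refine ⟨r⁻¹, ir_Rs_inv ((ir_mem_Rs A r).2 hr1), ?_⟩
    funext x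
    have h1 := congrFun hg x
    have h2 := congrFun hr2 (r⁻¹ x)
    have h3 : (g * r) (r⁻¹ x) = g x := by simp [Perm.mul_apply]
    simp only [Function.comp_apply] at h1 h2 ⊢
    rw [h3] at h2
    rw [h1, h2]

/-- PROOF. `pa a A ≠ 0` (value `1` at `a`: the only `σ ∈ Rs A` with `a ∘ σ = a` is `1`), so nontrivial. Let `U` be a
subrepresentation. (i) If `κ f ≠ 0` for some `f ∈ U` (`κ f` the sum in `kappa_lemma`), then `pa a A ∈ U`, so `U = ⊤`.
(ii) Otherwise let `⟨f, k⟩ = ∑_Y conj (f Y) * k Y`; for `f ∈ U` and all `g`,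
`#(Rs A)·⟨f, g pa⟩ = ⟨g κ g⁻¹ f, g pa⟩ = 0` (`κ` is self-adjoint, `κ pa = #(Rs A) pa`; `g⁻¹ f ∈ U`), and `f ∈ VV` is a
combination of the `g pa`, so `⟨f, f⟩ = 0`, `f = 0`. -/
theorem Vrep_irreducible {a A : Word X} (h : Tb a A) : Representation.IsIrreducible (Vrep a A) := by
  have h1Rs : (1 : Perm X) ∈ Rs A := by rw [ir_mem_Rs]; rfl
  have hval : pa a A (irY h) = 1 := by
    rw [ir_pa_val h h1Rs (Y := irY h) rfl]; simp
  have hpaV : pa a A ∈ VV a A := Submodule.subset_span ⟨1, by simp only [map_one]; rfl⟩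
  have hpa0 : (⟨pa a A, hpaV⟩ : VV a A) ≠ 0 := by
    intro h0
    have : pa a A = 0 := congrArg Subtype.val h0
    rw [this] at hval
    simp at hval
  have hanti : ∀ τ ∈ Rs A, ∀ Y, pa a A (Y ∘ τ) = (((Perm.sign τ : ℤˣ) : ℤ) : ℂ) * pa a A Y := by
    intro τ hτ Y
    rw [pa, pa, Finset.mul_sum]
    refine Finset.sum_bij' (fun σ _ => σ * τ⁻¹) (fun σ _ => σ * τ) ?_ ?_ ?_ ?_ ?_
    · intro σ hσ; exact ir_Rs_mul hσ (ir_Rs_inv hτ)
    · intro σ hσ; exact ir_Rs_mul hσ hτ
    · intro σ _; group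
    · intro σ _; group
    · intro σ _
      have hiff : ((fun x => (((Y ∘ τ) x : Fin _) : ℕ)) = a ∘ σ) ↔
          ((fun x => ((Y x : Fin _) : ℕ)) = a ∘ (σ * τ⁻¹ : Perm X)) := by
        constructor
        · intro h2
          funext x
          have := congrFun h2 (τ⁻¹ x)
          simpa [Perm.mul_apply] using this
        · intro h2
          funext x
          have := congrFun h2 (τ x)
          simpa [Perm.mul_apply] using this
      by_cases h2 : (fun x => (((Y ∘ τ) x : Fin _) : ℕ)) = a ∘ σ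
      · rw [if_pos h2, if_pos (hiff.1 h2), Perm.sign_mul, Perm.sign_inv]
        push_cast
        have := ir_sign_sq τ
        linear_combination (-(((Perm.sign σ : ℤˣ) : ℤ) : ℂ)) * this
      · rw [if_neg h2, if_neg (fun h3 => h2 (hiff.2 h3)), mul_zero]
  have hnt : Nontrivial (Subrepresentation (Vrep a A)) := by
    refine ⟨⊥, ⊤, ?_⟩
    intro h0
    have h1 : (⟨pa a A, hpaV⟩ : VV a A) ∈ (⊥ : Subrepresentation (Vrep a A)) := by
      rw [h0]; exact Submodule.mem_top (R := ℂ)
    exact hpa0 ((Submodule.mem_bot ℂ).1 h1)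
  refine { toNontrivial := hnt, eq_bot_or_eq_top := ?_ }
  intro U
  by_cases hcase : ∃ f ∈ U.toSubmodule, ka A f.1 ≠ 0
  · right
    obtain ⟨f, hfU, hf0⟩ := hcase
    obtain ⟨c, hc⟩ := kappa_lemma h f.1 f.2
    have hc' : ka A f.1 = c • pa a A := hc
    have hc0 : c ≠ 0 := by
      rintro rfl
      apply hf0
      rw [hc', zero_smul]
    have h2 : (∑ σ ∈ Rs A, (((Perm.sign σ : ℤˣ) : ℤ) : ℂ) • Vrep a A σ f) ∈ U.toSubmodule :=
      Submodule.sum_mem _ fun σ _ => Submodule.smul_mem _ _ (U.apply_mem_toSubmodule σ hfU)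
    have h3 : (∑ σ ∈ Rs A, (((Perm.sign σ : ℤˣ) : ℤ) : ℂ) • Vrep a A σ f) =
        c • (⟨pa a A, hpaV⟩ : VV a A) := by
      apply Subtype.ext
      rw [Submodule.coe_smul, ← hc, Submodule.coe_sum]
      rfl
    rw [h3] at h2
    have h4 : (⟨pa a A, hpaV⟩ : VV a A) ∈ U.toSubmodule := by
      have := U.toSubmodule.smul_mem c⁻¹ h2
      rwa [smul_smul, inv_mul_cancel₀ hc0, one_smul] at this
    have h5 : VV a A ≤ U.toSubmodule.map (VV a A).subtype := by
      refine Submodule.span_le.2 ?_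
      rintro _ ⟨g, rfl⟩
      exact ⟨Vrep a A g ⟨pa a A, hpaV⟩, U.apply_mem_toSubmodule g h4, rfl⟩
    apply Subrepresentation.toSubmodule_injective
    refine eq_top_iff.2 fun v _ => ?_
    obtain ⟨u, hu, huv⟩ := h5 v.2
    have : u = v := Subtype.ext huv
    rw [← this]; exact hu
  · left
    push Not at hcase
    have horth : ∀ f ∈ U.toSubmodule, ∀ g : Perm X,
        ∑ Y, (starRingEnd ℂ) (f.1 Y) * wrep X g (pa a A) Y = 0 := by
      intro f hf g
      -- move `g` to the left
      have hf' : Vrep a A g⁻¹ f ∈ U.toSubmodule := U.apply_mem_toSubmodule g⁻¹ hf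
      set f' := Vrep a A g⁻¹ f with hf'def
      have hf'val : ∀ Y, f'.1 Y = f.1 (Y ∘ (g⁻¹ : Perm X)) := fun Y => rfl
      have e1 : ∑ Y, (starRingEnd ℂ) (f.1 Y) * wrep X g (pa a A) Y =
          ∑ Y, (starRingEnd ℂ) (f'.1 Y) * pa a A Y := by
        refine Fintype.sum_equiv (Equiv.arrowCongr g⁻¹ (Equiv.refl _)) _ _ fun Y => ?_
        rw [hf'val, ir_wrep_apply]
        have e2 : (Equiv.arrowCongr g⁻¹ (Equiv.refl (Fin (Fintype.card X)))) Y = Y ∘ g := by
          funext x; rfl
        rw [e2]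
        have e4 : (Y ∘ g) ∘ (g⁻¹ : Perm X) = Y := by
          funext x; simp
        rw [e4]
      rw [e1]
      have hk := hcase f' hf'
      have e3 : (0 : ℂ) = ((Rs A).card : ℂ) * ∑ Y, (starRingEnd ℂ) (f'.1 Y) * pa a A Y := by
        calc (0 : ℂ) = ∑ Y, (starRingEnd ℂ) (ka A f'.1 Y) * pa a A Y := by
              rw [hk]; simp
          _ = ∑ Y, ∑ σ ∈ Rs A, (((Perm.sign σ : ℤˣ) : ℤ) : ℂ) *
                ((starRingEnd ℂ) (f'.1 (Y ∘ σ)) * pa a A Y) := by
              refine Finset.sum_congr rfl fun Y _ => ?_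
              rw [ir_ka_apply, map_sum, Finset.sum_mul]
              refine Finset.sum_congr rfl fun σ _ => ?_
              rw [map_mul]
              have : (starRingEnd ℂ) (((Perm.sign σ : ℤˣ) : ℤ) : ℂ) = (((Perm.sign σ : ℤˣ) : ℤ) : ℂ) :=
                map_intCast (starRingEnd ℂ) _
              rw [this]; ring
          _ = ∑ σ ∈ Rs A, ∑ Y, (((Perm.sign σ : ℤˣ) : ℤ) : ℂ) *
                ((starRingEnd ℂ) (f'.1 (Y ∘ σ)) * pa a A Y) := Finset.sum_comm
          _ = ∑ σ ∈ Rs A, ∑ Y, (starRingEnd ℂ) (f'.1 Y) * pa a A Y := by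
              refine Finset.sum_congr rfl fun σ hσ => ?_
              refine Fintype.sum_equiv (Equiv.arrowCongr σ⁻¹ (Equiv.refl _)) _ _ fun Y => ?_
              have e2 : (Equiv.arrowCongr σ⁻¹ (Equiv.refl (Fin (Fintype.card X)))) Y = Y ∘ σ := by
                funext x; rfl
              rw [e2, hanti σ hσ Y]
              ring
          _ = _ := by rw [Finset.sum_const, nsmul_eq_mul]
      have hcard : ((Rs A).card : ℂ) ≠ 0 := by
        have : 0 < (Rs A).card := Finset.card_pos.2 ⟨1, h1Rs⟩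
        exact_mod_cast this.ne'
      rcases mul_eq_zero.1 e3.symm with h4 | h4
      · exact absurd h4 hcard
      · exact h4
    apply Subrepresentation.toSubmodule_injective
    refine eq_bot_iff.2 fun f hf => ?_
    have hlin : ∑ Y, (starRingEnd ℂ) (f.1 Y) * f.1 Y = 0 := by
      refine Submodule.span_induction (p := fun k _ => ∑ Y, (starRingEnd ℂ) (f.1 Y) * k Y = 0)
        ?_ ?_ ?_ ?_ f.2
      · rintro _ ⟨g, rfl⟩
        exact horth f hf g
      · simp
      · intro x y _ _ hx hy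
        simp only [Pi.add_apply, mul_add, Finset.sum_add_distrib, hx, hy, add_zero]
      · intro c x _ hx
        simp only [Pi.smul_apply, smul_eq_mul]
        calc ∑ Y, (starRingEnd ℂ) (f.1 Y) * (c * x Y) = c * ∑ Y, (starRingEnd ℂ) (f.1 Y) * x Y := by
              rw [Finset.mul_sum]
              refine Finset.sum_congr rfl fun Y _ => ?_
              ring
          _ = 0 := by rw [hx, mul_zero]
    have h6 : ∀ Y, f.1 Y = 0 := by
      have e : ∑ Y, (starRingEnd ℂ) (f.1 Y) * f.1 Y = ((∑ Y, Complex.normSq (f.1 Y) : ℝ) : ℂ) := by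
        push_cast
        refine Finset.sum_congr rfl fun Y _ => ?_
        rw [mul_comm, Complex.mul_conj]
      rw [e] at hlin
      have h7 : ∑ Y, Complex.normSq (f.1 Y) = 0 := by exact_mod_cast hlin
      intro Y
      have h8 := (Finset.sum_eq_zero_iff_of_nonneg (fun Y _ => Complex.normSq_nonneg (f.1 Y))).1 h7 Y
        (Finset.mem_univ Y)
      exact Complex.normSq_eq_zero.1 h8
    show f ∈ (⊥ : Submodule ℂ (VV a A))
    rw [Submodule.mem_bot]
    apply Subtype.ext
    funext Y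
    exact h6 Y

end Crest.Agent.SG
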