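import Crest.Agent.SG.Defs

/-!
CHUNK R195-SG-SORT (medium).  `Defs` only.
-/

set_option autoImplicit false

namespace Crest.Agent.SG

open Finset Equiv Crest.Agent.Saxl

variable {X : Type} [Fintype X] [DecidableEq X]

set_option linter.unusedSectionVars false

/-- the values of `a` on a column `j` of height `h` are `0 .. h - 1` -/
private theorem col_vals {a A : Word X} (h : IsCol a A) (j : ℕ) :
    (∀ x, A x = j → a x < (univ.filter (fun x => A x = j)).card) ∧
      ∀ i, i < (univ.filter (fun x => A x = j)).card → ∃ y, A y = j ∧ a y = i := by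
  have hinj : Set.InjOn a ((univ.filter (fun x => A x = j) : Finset X) : Set X) := by
    intro x hx y hy hxy
    have hx' : A x = j := by simpa using hx
    have hy' : A y = j := by simpa using hy
    exact h.inj (by simp only [hxy, hx', hy'])
  have hlt : ∀ x, A x = j → a x < (univ.filter (fun x => A x = j)).card := by
    intro x hx
    have hsub : range (a x + 1) ⊆ (univ.filter (fun x => A x = j)).image a := by
      intro i hi
      obtain ⟨y, hy, hy2⟩ := h.lower x i (by have := mem_range.mp hi; omega)
      exact mem_image.mpr ⟨y, mem_filter.mpr ⟨mem_univ _, hy.trans hx⟩, hy2⟩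
    have h1 := card_le_card hsub
    have h2 : ((univ.filter (fun x => A x = j)).image a).card ≤
        (univ.filter (fun x => A x = j)).card := card_image_le
    rw [card_range] at h1
    omega
  refine ⟨hlt, ?_⟩
  intro i hi
  have heq : (univ.filter (fun x => A x = j)).image a =
      range (univ.filter (fun x => A x = j)).card := by
    refine eq_of_subset_of_card_le ?_ ?_
    · intro i hi
      obtain ⟨x, hx, rfl⟩ := mem_image.mp hi
      exact mem_range.mpr (hlt x (mem_filter.mp hx).2)
    · rw [card_image_of_injOn hinj, card_range]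
  have : i ∈ (univ.filter (fun x => A x = j)).image a := by
    rw [heq]
    exact mem_range.mpr hi
  obtain ⟨y, hy, hy2⟩ := mem_image.mp this
  exact ⟨y, (mem_filter.mp hy).2, hy2⟩

/-- sorting: a labelling of a finite set of numbers by decreasing height -/
private theorem exists_sort (J : Finset ℕ) (h : ℕ → ℕ) : ∃ f : ℕ → ℕ,
    Set.InjOn f (J : Set ℕ) ∧ ∀ j ∈ J, ∀ i, i ≤ f j → ∃ j' ∈ J, f j' = i ∧ h j ≤ h j' := by
  classical
  let R : ℕ → ℕ → Prop := fun j' j => h j < h j' ∨ (h j' = h j ∧ j' < j)
  have hirr : ∀ j, ¬ R j j := by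
    intro j hj
    rcases hj with hj | hj <;> omega
  have htr : ∀ a b c, R a b → R b c → R a c := by
    intro a b c hab hbc
    rcases hab with hab | hab <;> rcases hbc with hbc | hbc
    · left; omega
    · left; omega
    · left; omega
    · right; omega
  have htri : ∀ a b, a ≠ b → R a b ∨ R b a := by
    intro a b hab
    rcases lt_trichotomy (h a) (h b) with h1 | h1 | h1
    · right; left; exact h1
    · rcases lt_or_gt_of_ne hab with h2 | h2
      · left; right; exact ⟨h1, h2⟩
      · right; right; exact ⟨h1.symm, h2⟩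
    · left; left; exact h1
  let f : ℕ → ℕ := fun j => (J.filter (fun j' => R j' j)).card
  have hmono : ∀ j₁ ∈ J, ∀ j₂, R j₁ j₂ → f j₁ < f j₂ := by
    intro j₁ hj₁ j₂ hR
    refine card_lt_card ⟨?_, ?_⟩
    · intro x hx
      rw [mem_filter] at hx ⊢
      exact ⟨hx.1, htr _ _ _ hx.2 hR⟩
    · intro hsub
      have : j₁ ∈ J.filter (fun j' => R j' j₁) := hsub (mem_filter.mpr ⟨hj₁, hR⟩)
      exact hirr _ (mem_filter.mp this).2
  have hinj : Set.InjOn f (J : Set ℕ) := by
    intro j₁ hj₁ j₂ hj₂ heq
    by_contra hne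
    rcases htri j₁ j₂ hne with hR | hR
    · have := hmono j₁ hj₁ j₂ hR
      omega
    · have := hmono j₂ hj₂ j₁ hR
      omega
  have hlt : ∀ j ∈ J, f j < J.card := by
    intro j hj
    refine card_lt_card ⟨filter_subset _ _, ?_⟩
    intro hsub
    exact hirr _ (mem_filter.mp (hsub hj)).2
  have himg : J.image f = range J.card := by
    refine eq_of_subset_of_card_le ?_ ?_
    · intro i hi
      obtain ⟨x, hx, rfl⟩ := mem_image.mp hi
      exact mem_range.mpr (hlt x hx)
    · rw [card_image_of_injOn hinj, card_range]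
  refine ⟨f, hinj, ?_⟩
  intro j hj i hi
  have hi' : i ∈ J.image f := by
    rw [himg]
    exact mem_range.mpr (lt_of_le_of_lt hi (hlt j hj))
  obtain ⟨j', hj', hj'2⟩ := mem_image.mp hi'
  refine ⟨j', hj', hj'2, ?_⟩
  by_cases hne : j' = j
  · rw [hne]
  · rcases htri j' j hne with hR | hR
    · rcases hR with hR | hR <;> omega
    · have := hmono j hj j' hR
      omega

/-- the columns of a system of columns can be relabelled by decreasing height.
PROOF. `h j := #{x | A x = j}`, `J := univ.image A`; `j' ◁ j :⇔ h j < h j' ∨ (h j' = h j ∧ j' < j)`;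
new label `f j := #{j' ∈ J | j' ◁ j}`. `◁` is a strict linear order on `J`, so `f` is injective on `J` with image
`range #J` (`f j < #J`).  `A' := f ∘ A`.  `Tb`: if `i ≤ a x`, `j ≤ f (A x)` choose `j' ∈ J` with `f j' = j`; then `j' = A x`
or `j' ◁ A x` (otherwise `A x ◁ j'`, so `f (A x) < f j'`), so `h (A x) ≤ h j'`; the values of `a` on column `j` are exactly
`0 .. h j - 1` (`IsCol`), so `i ≤ a x < h (A x) ≤ h j'` and there is `y` with `A y = j'`, `a y = i`. -/
theorem exists_tb_of_col {a A : Word X} (h : IsCol a A) : ∃ A' : Word X, Tb a A' ∧ Rs A' = Rs A := by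
  obtain ⟨f, hinj, hf⟩ := exists_sort (univ.image A)
    (fun j => (univ.filter (fun x => A x = j)).card)
  have hA : ∀ x, A x ∈ univ.image A := fun x => mem_image.mpr ⟨x, mem_univ _, rfl⟩
  have hAeq : ∀ x y, f (A x) = f (A y) → A x = A y := by
    intro x y hxy
    exact hinj (mem_coe.mpr (hA x)) (mem_coe.mpr (hA y)) hxy
  refine ⟨fun x => f (A x), ⟨?_, ?_⟩, ?_⟩
  · intro x y hxy
    simp only [Prod.mk.injEq, true_and] at hxy
    exact h.inj (by simp only [hxy.1, hAeq x y hxy.2])
  · intro x i j hi hj
    obtain ⟨j', -, hj'2, hle⟩ := hf (A x) (hA x) j hj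
    have h1 := (col_vals h (A x)).1 x rfl
    obtain ⟨y, hy, hy2⟩ := (col_vals h j').2 i (by omega)
    exact ⟨y, rfl, hy2, by rw [hy, hj'2]⟩
  · unfold Rs
    refine filter_congr fun g _ => ?_
    constructor
    · intro hg
      funext x
      exact hAeq _ _ (congrFun hg x)
    · intro hg
      funext x
      have := congrFun hg x
      simp only [Function.comp_apply] at this ⊢
      rw [this]

theorem EPol_congr {a A b B c C A' B' C' : Word X} (hA : Rs A' = Rs A) (hB : Rs B' = Rs B)
    (hC : Rs C' = Rs C) : EPol a A' b B' c C' = EPol a A b B c C := by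
  unfold EPol
  rw [hA, hB, hC]

end Crest.Agent.SG
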