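import Crest.Agent.SG.EJ
import Crest.Agent.SG.Add
import Crest.Agent.SG.Sort
import Crest.Agent.SG.Tr
import Crest.Agent.Saxl.Shapes

/-!
# List layer: closure rules for `Good`
-/

set_option autoImplicit false

namespace Crest.Agent.SG

open Finset Equiv Crest.Agent.Saxl

section
variable {X : Type} [Fintype X] [DecidableEq X]

theorem getD_ones : ∀ (n : ℕ) (l : List ℕ) (j : ℕ),
    (ones n l).getD j 0 = l.getD j 0 + if j < n then 1 else 0
  | 0, l, j => by simp [ones]
  | n + 1, [], 0 => by simp [ones]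
  | n + 1, [], j + 1 => by
    have := getD_ones n [] j
    simp only [ones, List.getD_cons_succ, this]
    simp
  | n + 1, a :: l, 0 => by simp [ones]
  | n + 1, a :: l, j + 1 => by
    have := getD_ones n l j
    simp only [ones, List.getD_cons_succ, this]
    simp

theorem getD_lconj : ∀ (l : List ℕ) (j : ℕ), (lconj l).getD j 0 = l.countP (fun r => j < r)
  | [], j => by simp [lconj]
  | a :: l, j => by
    rw [lconj, getD_ones, getD_lconj l j, List.countP_cons]
    simp

theorem getD_ladd : ∀ (l l' : List ℕ) (j : ℕ), (ladd l l').getD j 0 = l.getD j 0 + l'.getD j 0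
  | [], l, j => by simp [ladd]
  | a :: l, [], j => by simp [ladd]
  | a :: l, b :: l', 0 => by simp [ladd]
  | a :: l, b :: l', j + 1 => by simpa [ladd] using getD_ladd l l' j

/-- rows of length `l` give columns of length `lconj l` -/
theorem rowSz_conj {a A : Word X} (h : Tb a A) {l : List ℕ} (hl : RowSz a l) :
    RowSz A (lconj l) := by
  intro j
  rw [getD_lconj]
  -- a letter of column `j` is the letter of row `i` with `A = j`
  have h1 : (univ.filter (fun x => A x = j)).card =
      ((range l.length).filter (fun i => j < l.getD i 0)).card := by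
    refine card_bij (fun x _ => a x) ?_ ?_ ?_
    · intro x hx
      rw [mem_filter] at hx
      have h2 : A x ∈ (univ.filter (fun y => a y = a x)).image A :=
        mem_image_of_mem A (by rw [mem_filter]; exact ⟨mem_univ _, rfl⟩)
      rw [sh_row_image h, mem_range, hl, hx.2] at h2
      rw [mem_filter, mem_range]
      refine ⟨?_, h2⟩
      by_contra hc
      rw [List.getD_eq_default _ _ (by omega)] at h2
      omega
    · intro x hx y hy hxy
      rw [mem_filter] at hx hy
      exact h.inj (by simp only [hxy, hx.2, hy.2])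
    · intro i hi
      rw [mem_filter] at hi
      have h2 : j ∈ (univ.filter (fun y => a y = i)).image A := by
        rw [sh_row_image h, mem_range, hl]
        exact hi.2
      rw [mem_image] at h2
      obtain ⟨x, hx, hx2⟩ := h2
      rw [mem_filter] at hx
      exact ⟨x, by rw [mem_filter]; exact ⟨mem_univ _, hx2⟩, hx.2⟩
  rw [h1]
  clear hl h1
  induction l with
  | nil => simp
  | cons b l ih =>
    rw [List.length_cons, List.countP_cons, ← ih]
    rw [Finset.card_filter, Finset.card_filter, Finset.sum_range_succ']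
    simp

end

theorem rowSz_congr {X : Type} [Fintype X] [DecidableEq X] {a : Word X} {l l' : List ℕ}
    (h : RowSz a l) (hl : ∀ i, l.getD i 0 = l'.getD i 0) : RowSz a l' := fun i => by
  rw [h i, hl i]

/-- tableaux with a given list of row lengths -/
theorem exists_tb_of_list {X : Type} [Fintype X] [DecidableEq X] (l : List ℕ)
    (hpw : l.Pairwise (· ≥ ·)) (hsum : l.sum = Fintype.card X) :
    ∃ a A : Word X, Tb a A ∧ RowSz a l := by
  classical
  set C : Finset (Σ _ : ℕ, ℕ) := (range l.length).sigma (fun i => range (l.getD i 0)) with hC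
  have hCmem : ∀ c : Σ _ : ℕ, ℕ, c ∈ C ↔ c.2 < l.getD c.1 0 := by
    intro c
    rw [hC, mem_sigma, mem_range, mem_range]
    constructor
    · exact fun h => h.2
    · intro h
      refine ⟨?_, h⟩
      by_contra h'
      rw [List.getD_eq_default _ _ (by omega)] at h
      omega
  have hCcard : C.card = Fintype.card X := by
    rw [hC, card_sigma, ← hsum, ← sh_sum_getD]
    exact sum_congr rfl fun i _ => card_range _
  have e : X ≃ C := Fintype.equivOfCardEq (by rw [Fintype.card_coe, hCcard])
  refine ⟨fun x => (e x).1.1, fun x => (e x).1.2, ⟨?_, ?_⟩, ?_⟩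
  · intro x y hxy
    simp only [Prod.mk.injEq, true_and] at hxy
    apply e.injective
    apply Subtype.ext
    exact Sigma.ext hxy.1 (heq_of_eq hxy.2)
  · intro x i j hi hj
    have hx := (hCmem _).1 (e x).2
    have hc : (⟨i, j⟩ : Σ _ : ℕ, ℕ) ∈ C := by
      rw [hCmem]
      have := sh_getD_anti hpw hi
      simp only at this ⊢
      omega
    refine ⟨e.symm ⟨⟨i, j⟩, hc⟩, rfl, ?_, ?_⟩ <;> simp
  · intro i
    have h1 : (univ.filter (fun x => (e x).1.1 = i)).card = (C.filter (fun c => c.1 = i)).card := by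
      refine card_bij (fun x _ => (e x).1) ?_ ?_ ?_
      · intro x hx
        rw [mem_filter] at hx ⊢
        exact ⟨(e x).2, hx.2⟩
      · intro x _ y _ h
        exact e.injective (Subtype.ext h)
      · intro c hc
        rw [mem_filter] at hc
        refine ⟨e.symm ⟨c, hc.1⟩, ?_, ?_⟩ <;> simp [hc.2]
    rw [h1]
    have h2 : (C.filter (fun c => c.1 = i)).card = (range (l.getD i 0)).card := by
      refine card_bij (fun c _ => c.2) ?_ ?_ ?_
      · rintro ⟨a, b⟩ hc
        rw [mem_filter, hCmem] at hc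
        obtain ⟨h3, h4⟩ := hc
        simp only at h3 h4 ⊢
        subst h4
        rw [mem_range]
        exact h3
      · rintro ⟨a, b⟩ hc ⟨a', b'⟩ hc' h
        rw [mem_filter] at hc hc'
        simp only at h hc hc'
        rw [h, hc.2, hc'.2]
      · intro b hb
        rw [mem_range] at hb
        exact ⟨⟨i, b⟩, by rw [mem_filter, hCmem]; exact ⟨hb, rfl⟩, rfl⟩
    rw [h2, card_range]

/-- From a nonzero triple product to `Good`. -/
theorem good_of_JN {X : Type} [Fintype X] [DecidableEq X] {a A b B c C : Word X} {α β γ : List ℕ}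
    (ha : Tb a A) (hb : Tb b B) (hc : Tb c C) (ra : RowSz a α) (rb : RowSz b β) (rc : RowSz c γ)
    (h : JN a A b B c C) : Good α β γ :=
  ⟨X, inferInstance, inferInstance, a, A, b, B, c, C, ha, hb, hc, ra, rb, rc,
    (JN_iff a A b B c C).1 h⟩

/-- `Good` from systems of columns -/
theorem good_of_col {X : Type} [Fintype X] [DecidableEq X] {a A b B c C : Word X} {α β γ : List ℕ}
    (ha : IsCol a A) (hb : IsCol b B) (hc : IsCol c C) (ra : RowSz a α) (rb : RowSz b β)
    (rc : RowSz c γ) (h : EPol a A b B c C ≠ 0) : Good α β γ := by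
  obtain ⟨A', hA, hA'⟩ := exists_tb_of_col ha
  obtain ⟨B', hB, hB'⟩ := exists_tb_of_col hb
  obtain ⟨C', hC, hC'⟩ := exists_tb_of_col hc
  exact ⟨X, inferInstance, inferInstance, a, A', b, B', c, C', hA, hB, hC, ra, rb, rc, by
    rwa [EPol_congr hA' hB' hC']⟩

theorem good_congr {α β γ α' β' γ' : List ℕ} (h : Good α β γ) (h1 : ∀ i, α.getD i 0 = α'.getD i 0)
    (h2 : ∀ i, β.getD i 0 = β'.getD i 0) (h3 : ∀ i, γ.getD i 0 = γ'.getD i 0) : Good α' β' γ' := by
  obtain ⟨X, i1, i2, a, A, b, B, c, C, ha, hb, hc, ra, rb, rc, h⟩ := h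
  exact ⟨X, i1, i2, a, A, b, B, c, C, ha, hb, hc, rowSz_congr ra h1, rowSz_congr rb h2,
    rowSz_congr rc h3, h⟩

/-- semigroup property -/
theorem good_add {α β γ α' β' γ' : List ℕ} (h : Good α β γ) (h' : Good α' β' γ') :
    Good (ladd α α') (ladd β β') (ladd γ γ') := by
  obtain ⟨X, i1, i2, a, A, b, B, c, C, ha, hb, hc, ra, rb, rc, h⟩ := h
  obtain ⟨X', i1', i2', a', A', b', B', c', C', ha', hb', hc', ra', rb', rc', h'⟩ := h'
  refine good_of_col (isCol_sum (isCol_of_tb ha) (isCol_of_tb ha'))
    (isCol_sum (isCol_of_tb hb) (isCol_of_tb hb')) (isCol_sum (isCol_of_tb hc) (isCol_of_tb hc'))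
    (rowSz_sum ra ra') (rowSz_sum rb rb') (rowSz_sum rc rc') ?_
  rw [EPol_sum]
  exact mul_ne_zero h h'

theorem good_swap12 {α β γ : List ℕ} (h : Good α β γ) : Good β α γ := by
  obtain ⟨X, i1, i2, a, A, b, B, c, C, ha, hb, hc, ra, rb, rc, h⟩ := h
  refine good_of_JN hb ha hc rb ra rc ?_
  obtain ⟨u, v, w, h⟩ := (JN_iff _ _ _ _ _ _).2 h
  refine ⟨v, u, w, ?_⟩
  convert h using 1
  unfold JJ
  exact sum_congr rfl fun g _ => by ring

theorem good_swap23 {α β γ : List ℕ} (h : Good α β γ) : Good α γ β := by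
  obtain ⟨X, i1, i2, a, A, b, B, c, C, ha, hb, hc, ra, rb, rc, h⟩ := h
  refine good_of_JN ha hc hb ra rc rb ?_
  obtain ⟨u, v, w, h⟩ := (JN_iff _ _ _ _ _ _).2 h
  refine ⟨u, w, v, ?_⟩
  convert h using 1
  unfold JJ
  exact sum_congr rfl fun g _ => by ring

theorem rowSz_comp {X : Type} [Fintype X] [DecidableEq X] {a : Word X} {l : List ℕ}
    (h : RowSz a l) (p : Perm X) : RowSz (a ∘ p) l := by
  intro i
  rw [← h i]
  refine card_bij (fun x _ => p x) ?_ ?_ ?_
  · intro x hx
    rw [mem_filter] at hx ⊢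
    exact ⟨mem_univ _, hx.2⟩
  · intro x _ y _ hxy
    exact p.injective hxy
  · intro y hy
    rw [mem_filter] at hy
    exact ⟨p.symm y, by rw [mem_filter]; simpa using hy.2, by simp⟩

/-- transposing two of the three shapes -/
theorem good_tr12 {α β γ : List ℕ} (h : Good α β γ) : Good (lconj α) (lconj β) γ := by
  obtain ⟨X, i1, i2, a, A, b, B, c, C, ha, hb, hc, ra, rb, rc, h⟩ := h
  obtain ⟨p, q, h1⟩ := JN_tr ha hb ((JN_iff _ _ _ _ _ _).2 h)
  exact good_of_JN (tb_symm (tb_comp ha p)) (tb_symm (tb_comp hb q)) hc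
    (rowSz_comp (rowSz_conj ha ra) p) (rowSz_comp (rowSz_conj hb rb) q) rc h1

/-- the trivial triples -/
theorem good_triv (l : List ℕ) (hl : l.Pairwise (· ≥ ·)) : Good l l [l.sum] := by
  have hX : Fintype.card (Fin l.sum) = l.sum := Fintype.card_fin _
  obtain ⟨a, A, ha, ra⟩ := exists_tb_of_list (X := Fin l.sum) l hl hX.symm
  have hc : Tb (fun _ : Fin l.sum => 0) (fun x : Fin l.sum => (x : ℕ)) := by
    refine ⟨fun x y hxy => ?_, fun x i j hi hj => ?_⟩
    · simp only [Prod.mk.injEq, true_and] at hxy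
      exact Fin.ext hxy
    · exact ⟨⟨j, by have := x.2; have h2 : j ≤ (x : ℕ) := hj; omega⟩, rfl,
        (Nat.le_zero.1 hi).symm, rfl⟩
  have rc : RowSz (fun _ : Fin l.sum => 0) [l.sum] := by
    intro i
    cases i with
    | zero => simp
    | succ i => simp
  refine good_of_JN ha ha hc ra ra rc ⟨1, 1, 1, ?_⟩
  have h1 : ∀ g : Perm (Fin l.sum), ph (fun _ : Fin l.sum => 0) (fun x : Fin l.sum => (x : ℕ)) g = 1 := by
    intro g
    have hR : Rs (fun x : Fin l.sum => (x : ℕ)) = {1} := by
      ext σ
      simp only [Rs, mem_filter, mem_univ, true_and, mem_singleton]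
      constructor
      · intro h
        ext x
        exact congrFun h x
      · rintro rfl
        rfl
    unfold ph
    rw [hR, sum_singleton]
    rw [if_pos (by rfl)]
    simp
  unfold JJ
  simp only [one_mul, h1, mul_one]
  have h2 : 0 < ∑ g : Perm (Fin l.sum), ph a A g * ph a A g := by
    refine sum_pos' (fun g _ => mul_self_nonneg _) ⟨1, mem_univ _, ?_⟩
    have : ph a A 1 = 1 := by
      unfold ph
      rw [sum_eq_single (1 : Perm (Fin l.sum))]
      · simp
      · intro σ hσ hne
        rw [if_neg]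
        intro hc
        apply hne
        have h3 : A ∘ σ = A := by simpa [Rs] using hσ
        ext x
        have e1 := congrFun hc x
        have e2 := congrFun h3 x
        have e1' : a x = a (σ x) := e1
        have e2' : A (σ x) = A x := e2
        have : σ x = x := ha.inj (by simp only [← e1', e2'])
        rw [this]; rfl
      · intro hn
        exact absurd (by simp [Rs]) hn
    rw [this]
    norm_num
  exact h2.ne'

end Crest.Agent.SG
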