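import Crest.Agent.SG.Lists

/-!
# Good triples from systems of columns with a unique compatible triple of row words
-/

set_option autoImplicit false

namespace Crest.Agent.SG

open Finset Equiv Crest.Agent.Saxl

/-- triples of naturals -/
abbrev N3 := ℕ × ℕ × ℕ

/-- `(c, s)` is compatible with `(c', s')` (columns `c`, values `s`) -/
def compat (c s c' s' : N3) : Bool :=
  !(Nat.beq c.1 c'.1 && Nat.beq s.1 s'.1) &&
    (!(Nat.beq c.2.1 c'.2.1 && Nat.beq s.2.1 s'.2.1) &&
      !(Nat.beq c.2.2 c'.2.2 && Nat.beq s.2.2 s'.2.2))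

/-- compatible with all the previous ones -/
def compatL (c s : N3) : List N3 → List N3 → Bool
  | c' :: cs, s' :: ss => compat c s c' s' && compatL c s cs ss
  | _, _ => true

/-- height condition: the value is smaller than the height of the column -/
def hok (hA hB hC : List ℕ) (c s : N3) : Bool :=
  Nat.blt s.1 (hA.getD c.1 0) && (Nat.blt s.2.1 (hB.getD c.2.1 0) && Nat.blt s.2.2 (hC.getD c.2.2 0))

/-- extend one partial solution -/
def ext1 (H : N3 → N3 → Bool) (c : N3) (cs p : List N3) : List N3 → List (List N3)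
  | [] => []
  | s :: S => match H c s && compatL c s cs p with
    | true => (s :: p) :: ext1 H c cs p S
    | false => ext1 H c cs p S

/-- extend all partial solutions -/
def extL (H : N3 → N3 → Bool) (c : N3) (cs S : List N3) : List (List N3) → List (List N3)
  | [] => []
  | p :: ps => ext1 H c cs p S ++ extL H c cs S ps

/-- all solutions -/
def sols (H : N3 → N3 → Bool) (S : List N3) : List N3 → List (List N3)
  | [] => [[]]
  | c :: cs => extL H c cs S (sols H S cs)

theorem mem_ext1 {H : N3 → N3 → Bool} {c : N3} {cs p : List N3} : ∀ {S : List N3} {s : N3}, s ∈ S →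
    (H c s && compatL c s cs p) = true → (s :: p) ∈ ext1 H c cs p S
  | t :: S, s, hs, h => by
    unfold ext1
    rcases List.mem_cons.1 hs with rfl | hs
    · rw [h]
      simp
    · split
      · exact List.mem_cons_of_mem _ (mem_ext1 hs h)
      · exact mem_ext1 hs h

theorem mem_extL {H : N3 → N3 → Bool} {c : N3} {cs S : List N3} {s : N3} {p : List N3} (hs : s ∈ S)
    (h : (H c s && compatL c s cs p) = true) :
    ∀ {ps : List (List N3)}, p ∈ ps → (s :: p) ∈ extL H c cs S ps
  | q :: ps, hp => by
    unfold extL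
    rw [List.mem_append]
    rcases List.mem_cons.1 hp with rfl | hp
    · exact Or.inl (mem_ext1 hs h)
    · exact Or.inr (mem_extL hs h hp)

theorem mem_sols (H : N3 → N3 → Bool) (S : List N3) : ∀ (L : List (N3 × N3)),
    (∀ q ∈ L, q.2 ∈ S ∧ H q.1 q.2 = true) →
    L.Pairwise (fun q q' => compat q.1 q.2 q'.1 q'.2 = true) →
    L.map Prod.snd ∈ sols H S (L.map Prod.fst)
  | [], _, _ => by simp [sols]
  | q :: L, hS, hL => by
    rw [List.pairwise_cons] at hL
    have ih := mem_sols H S L (fun r hr => hS r (by simp [hr])) hL.2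
    have hc : compatL q.1 q.2 (L.map Prod.fst) (L.map Prod.snd) = true := by
      have key : ∀ L : List (N3 × N3), (∀ r ∈ L, compat q.1 q.2 r.1 r.2 = true) →
          compatL q.1 q.2 (L.map Prod.fst) (L.map Prod.snd) = true := by
        intro L
        induction L with
        | nil => intro _; rfl
        | cons r L ih =>
          intro h
          simp only [List.map_cons, compatL]
          rw [h r (by simp), ih fun x hx => h x (by simp [hx])]
          rfl
      exact key L hL.1
    simp only [List.map_cons, sols]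
    refine mem_extL (hS q (by simp)).1 ?_ ih
    rw [(hS q (by simp)).2, hc]
    rfl

/-- the word of a list -/
def wl (n : ℕ) (l : List ℕ) : Word (Fin n) := fun x => l.getD (x : ℕ) 0

/-- the triples of three lists -/
def zip3 : List ℕ → List ℕ → List ℕ → List N3
  | a :: l, b :: m, c :: k => (a, b, c) :: zip3 l m k
  | _, _, _ => []

theorem zip3_eq : ∀ (n : ℕ) (l m k : List ℕ), l.length = n → m.length = n → k.length = n →
    zip3 l m k = List.ofFn (fun x : Fin n => (l.getD (x : ℕ) 0, m.getD (x : ℕ) 0, k.getD (x : ℕ) 0))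
  | 0, l, m, k, hl, hm, hk => by
    rw [List.length_eq_zero_iff.1 hl]
    simp [zip3]
  | n + 1, [], m, k, hl, _, _ => by simp at hl
  | n + 1, a :: l, [], k, _, hm, _ => by simp at hm
  | n + 1, a :: l, b :: m, [], _, _, hk => by simp at hk
  | n + 1, a :: l, b :: m, c :: k, hl, hm, hk => by
    have ih := zip3_eq n l m k (by simpa using hl) (by simpa using hm) (by simpa using hk)
    rw [zip3, ih, List.ofFn_succ]
    rfl

section
variable {X : Type} [Fintype X] [DecidableEq X]

/-- EVALUATION. If the only triple of permutations compatible with the support `S` is `(1,1,1)` then the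
Kronecker polynomial is nonzero. -/
theorem EPol_ne_zero_of_unique {a A b B c C : Word X} (S : Set (ℕ × ℕ × ℕ))
    (hS : ∀ x, (a x, b x, c x) ∈ S)
    (huniq : ∀ σ ∈ Rs A, ∀ τ ∈ Rs B, ∀ υ ∈ Rs C,
      (∀ x, (a (σ x), b (τ x), c (υ x)) ∈ S) → σ = 1 ∧ τ = 1 ∧ υ = 1) :
    EPol a A b B c C ≠ 0 := by
  classical
  intro h0
  have h1 := congrArg (MvPolynomial.eval (fun i => if i ∈ S then (1 : ℤ) else 0)) h0
  rw [map_zero] at h1
  have hone : ∀ w : Word X, (1 : Perm X) ∈ Rs w := by
    intro w
    simp [Rs]
  unfold EPol at h1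
  simp only [map_sum, map_mul, map_prod, MvPolynomial.eval_C, MvPolynomial.eval_X] at h1
  have hval : ∀ σ τ υ : Perm X, (∏ x, if (a (σ x), b (τ x), c (υ x)) ∈ S then (1 : ℤ) else 0) =
      if ∀ x, (a (σ x), b (τ x), c (υ x)) ∈ S then 1 else 0 := by
    intro σ τ υ
    by_cases h : ∀ x, (a (σ x), b (τ x), c (υ x)) ∈ S
    · rw [if_pos h]
      exact Finset.prod_eq_one fun x _ => if_pos (h x)
    · rw [if_neg h]
      push Not at h
      obtain ⟨x, hx⟩ := h
      exact Finset.prod_eq_zero (mem_univ x) (if_neg hx)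
  rw [Finset.sum_eq_single_of_mem 1 (hone A)] at h1
  · rw [Finset.sum_eq_single_of_mem 1 (hone B)] at h1
    · rw [Finset.sum_eq_single_of_mem 1 (hone C)] at h1
      · rw [hval, if_pos] at h1
        · simp at h1
        · intro x
          exact hS x
      · intro υ hυ hne
        rw [hval, if_neg, mul_zero]
        intro h
        exact hne (huniq 1 (hone A) 1 (hone B) υ hυ h).2.2
    · intro τ hτ hne
      refine Finset.sum_eq_zero fun υ hυ => ?_
      rw [hval, if_neg, mul_zero]
      intro h
      exact hne (huniq 1 (hone A) τ hτ υ hυ h).2.1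
  · intro σ hσ hne
    refine Finset.sum_eq_zero fun τ hτ => Finset.sum_eq_zero fun υ hυ => ?_
    rw [hval, if_neg, mul_zero]
    intro h
    exact hne (huniq σ hσ τ hτ υ hυ h).1

/-- a permutation preserving the columns and the rows is the identity -/
theorem eq_one_of_isCol {a A : Word X} (h : IsCol a A) {σ : Perm X} (hσ : σ ∈ Rs A)
    (ha : ∀ x, a (σ x) = a x) : σ = 1 := by
  have hA : A ∘ σ = A := by simpa [Rs] using hσ
  ext x
  have := congrFun hA x
  have e : A (σ x) = A x := this
  have : σ x = x := h.inj (by simp only [ha x, e])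
  rw [this]
  rfl

/-- the values of a column are smaller than its height -/
theorem lt_height {a A : Word X} (h : IsCol a A) (x : X) :
    a x < (univ.filter (fun y => A y = A x)).card := by
  have h1 : (range (a x + 1)).card ≤ (univ.filter (fun y => A y = A x)).card := by
    refine (Finset.card_le_card ?_).trans (Finset.card_image_le (f := a))
    intro i hi
    rw [mem_range] at hi
    obtain ⟨y, h2, h3⟩ := h.lower x i (by omega)
    rw [mem_image]
    exact ⟨y, by rw [mem_filter]; exact ⟨mem_univ _, h2⟩, h3⟩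
  rw [card_range] at h1
  omega

theorem good_of_unique (n : ℕ) (la lA lb lB lc lC hA' hB' hC' : List ℕ) (α β γ : List ℕ)
    (hlen : la.length = n ∧ lA.length = n ∧ lb.length = n ∧ lB.length = n ∧ lc.length = n ∧
      lC.length = n)
    (ha : IsCol (wl n la) (wl n lA)) (hb : IsCol (wl n lb) (wl n lB)) (hc : IsCol (wl n lc) (wl n lC))
    (ra : RowSz (wl n la) α) (rb : RowSz (wl n lb) β) (rc : RowSz (wl n lc) γ)
    (hhA : ∀ x : Fin n, (univ.filter (fun y => wl n lA y = wl n lA x)).card = hA'.getD (wl n lA x) 0)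
    (hhB : ∀ x : Fin n, (univ.filter (fun y => wl n lB y = wl n lB x)).card = hB'.getD (wl n lB x) 0)
    (hhC : ∀ x : Fin n, (univ.filter (fun y => wl n lC y = wl n lC x)).card = hC'.getD (wl n lC x) 0)
    (S : List N3) (hS : ∀ q ∈ zip3 la lb lc, q ∈ S)
    (h : sols (hok hA' hB' hC') S (zip3 lA lB lC) = [zip3 la lb lc]) : Good α β γ := by
  refine good_of_col ha hb hc ra rb rc (EPol_ne_zero_of_unique {q | q ∈ S} ?_ ?_)
  · intro x
    refine hS _ ?_
    rw [zip3_eq n la lb lc hlen.1 hlen.2.2.1 hlen.2.2.2.2.1, List.mem_ofFn]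
    exact ⟨x, rfl⟩
  · intro σ hσ τ hτ υ hυ hmem
    have hA : ∀ x, wl n lA (σ x) = wl n lA x := fun x => congrFun (by simpa [Rs] using hσ : wl n lA ∘ σ = wl n lA) x
    have hB : ∀ x, wl n lB (τ x) = wl n lB x := fun x => congrFun (by simpa [Rs] using hτ : wl n lB ∘ τ = wl n lB) x
    have hC : ∀ x, wl n lC (υ x) = wl n lC x := fun x => congrFun (by simpa [Rs] using hυ : wl n lC ∘ υ = wl n lC) x
    set L : List (N3 × N3) := List.ofFn (fun x : Fin n =>
      (((wl n lA x, wl n lB x, wl n lC x) : N3),
        ((wl n la (σ x), wl n lb (τ x), wl n lc (υ x)) : N3))) with hL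
    have h1 := mem_sols (hok hA' hB' hC') S L (by
      intro q hq
      rw [hL, List.mem_ofFn] at hq
      obtain ⟨x, rfl⟩ := hq
      refine ⟨hmem x, ?_⟩
      have key : ∀ (a A : Word (Fin n)) (hh : List ℕ) (ρ : Perm (Fin n)), IsCol a A →
          (∀ x, A (ρ x) = A x) →
          (∀ x : Fin n, (univ.filter (fun y => A y = A x)).card = hh.getD (A x) 0) →
          Nat.blt (a (ρ x)) (hh.getD (A x) 0) = true := by
        intro a A hh ρ hcol hρ hhh
        have h2 := lt_height hcol (ρ x)
        rw [hρ x, hhh x] at h2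
        exact Nat.ble_eq_true_of_le h2
      unfold hok
      dsimp only
      rw [key _ _ _ σ ha hA hhA, key _ _ _ τ hb hB hhB, key _ _ _ υ hc hC hhC]
      rfl) (by
      rw [hL, List.pairwise_ofFn]
      intro x y hxy
      have hne : x ≠ y := hxy.ne
      have key : ∀ (a A : Word (Fin n)) (ρ : Perm (Fin n)), IsCol a A → (∀ x, A (ρ x) = A x) →
          (Nat.beq (A x) (A y) && Nat.beq (a (ρ x)) (a (ρ y))) = false := by
        intro a A ρ hcol hρ
        by_contra hcon
        have h2 : (Nat.beq (A x) (A y) && Nat.beq (a (ρ x)) (a (ρ y))) = true := by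
          simpa using hcon
        rw [Bool.and_eq_true] at h2
        have e1 := Nat.eq_of_beq_eq_true h2.1
        have e2 := Nat.eq_of_beq_eq_true h2.2
        have e3 : ρ x = ρ y := hcol.inj (by simp only [hρ x, hρ y, e1, e2])
        exact hne (ρ.injective e3)
      unfold compat
      dsimp only
      rw [key _ _ σ ha hA, key _ _ τ hb hB, key _ _ υ hc hC]
      rfl)
    have e1 : L.map Prod.fst = zip3 lA lB lC := by
      rw [zip3_eq n lA lB lC hlen.2.1 hlen.2.2.2.1 hlen.2.2.2.2.2, hL, List.map_ofFn]
      rfl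
    have e2 : L.map Prod.snd = List.ofFn (fun x : Fin n =>
        ((wl n la (σ x), wl n lb (τ x), wl n lc (υ x)) : N3)) := by
      rw [hL, List.map_ofFn]
      rfl
    rw [e1, h, List.mem_singleton, e2, zip3_eq n la lb lc hlen.1 hlen.2.2.1 hlen.2.2.2.2.1] at h1
    have h2 := List.ofFn_injective h1
    have h3 : ∀ x, wl n la (σ x) = wl n la x ∧ wl n lb (τ x) = wl n lb x ∧ wl n lc (υ x) = wl n lc x := by
      intro x
      have := congrFun h2 x
      simp only [Prod.mk.injEq] at this
      exact this
    exact ⟨eq_one_of_isCol ha hσ fun x => (h3 x).1, eq_one_of_isCol hb hτ fun x => (h3 x).2.1,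
      eq_one_of_isCol hc hυ fun x => (h3 x).2.2⟩

end

/-! ### decidable side conditions -/

theorem isCol_of_dec {n : ℕ} {a A : Word (Fin n)}
    (h1 : ∀ x y : Fin n, a x = a y → A x = A y → x = y)
    (h2 : ∀ x : Fin n, ∀ i < a x + 1, ∃ y : Fin n, A y = A x ∧ a y = i) : IsCol a A := by
  refine ⟨fun x y hxy => ?_, fun x i hi => h2 x i (by omega)⟩
  simp only [Prod.mk.injEq] at hxy
  exact h1 x y hxy.1 hxy.2

theorem rowSz_of_dec {n : ℕ} {a : Word (Fin n)} {l : List ℕ} {m : ℕ}
    (h1 : ∀ i < m, (univ.filter (fun x => a x = i)).card = l.getD i 0)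
    (h2 : ∀ x, a x < m) (h3 : l.length ≤ m) : RowSz a l := by
  intro i
  by_cases hi : i < m
  · exact h1 i hi
  · rw [List.getD_eq_default _ _ (by omega), Finset.card_eq_zero, Finset.filter_eq_empty_iff]
    intro x _ hx
    have := h2 x
    omega

end Crest.Agent.SG
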